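import Vale.Agent.P159.Defs

/-! Cones of functions. Hints: `0 = 0 * 1` lies in the cone; powers `q ^ n` lie in the cone.
`Good.exp`: `p * (exp q * g) = ∑' n, (p * q ^ n / n!) * g` (`NormedSpace.expSeries_div_hasSum_exp`, `Real.exp_eq_exp_ℝ`),
`hasSum_integral_of_summable_integral_norm` or `hasSum_integral_of_summable_norm` with bounds of `p, q, g` on the compact space
(`Real.summable_pow_div_factorial`), `HasSum.nonneg`. `Good.sinh`: the same with `Real.hasSum_sinh`. Prove one lemma for a series
`HasSum (fun n => a n * x ^ (k n)) (φ x)` with `0 ≤ a n` and use it twice. -/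

open MeasureTheory Filter Topology Real Set Function

noncomputable section

namespace Vale.Agent.P159

variable {Y : Type} [TopologicalSpace Y] [CompactSpace Y] [MeasurableSpace Y] [BorelSpace Y]
  {μ : Measure Y} [IsFiniteMeasure μ] {P : Set (Y → ℝ)} {g q : Y → ℝ}

omit [CompactSpace Y] [MeasurableSpace Y] [BorelSpace Y] in
theorem IsCone.sum (hP : IsCone P) {ι : Type} (s : Finset ι) {f : ι → Y → ℝ}
    (h : ∀ i ∈ s, f i ∈ P) : (fun y => ∑ i ∈ s, f i y) ∈ P := by
  classical
  induction s using Finset.induction_on with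
  | empty => simpa using hP.smul 0 le_rfl _ hP.one
  | insert i s hi ih =>
    simp only [Finset.sum_insert hi]
    exact hP.add _ (h i (Finset.mem_insert_self _ _)) _
      (ih fun j hj => h j (Finset.mem_insert_of_mem hj))

omit [CompactSpace Y] [MeasurableSpace Y] [BorelSpace Y] in
theorem Cone_pow (hP : IsCone P) (hq : q ∈ P) (n : ℕ) : (fun y => q y ^ n) ∈ P := by
  induction n with
  | zero => simpa using hP.one
  | succ n ih =>
    simp only [pow_succ]
    exact hP.mul _ ih _ hq

omit [MeasurableSpace Y] [BorelSpace Y] in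
theorem Cone_bd {f : Y → ℝ} (hf : Continuous f) : ∃ B, 0 ≤ B ∧ ∀ y, |f y| ≤ B := by
  obtain ⟨B, hB⟩ := isCompact_univ.exists_bound_of_continuousOn hf.continuousOn
  exact ⟨|B|, abs_nonneg _, fun y => (hB y (mem_univ y)).trans (le_abs_self B)⟩

theorem Cone_series (hP : IsCone P) (hg : Good μ P g) (hq : q ∈ P) {a : ℕ → ℝ} {k : ℕ → ℕ}
    {φ : ℝ → ℝ} (ha : ∀ n, 0 ≤ a n) (hφ : ∀ x, HasSum (fun n => a n * x ^ k n) (φ x))
    (hc : Continuous φ) : Good μ P fun y => φ (q y) * g y := by
  have cq := hP.cont q hq
  have cg := hg.1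
  refine ⟨by fun_prop, fun p hp => ?_⟩
  have cp := hP.cont p hp
  obtain ⟨B, hB0, hB⟩ := Cone_bd (f := fun y => p y * g y) (by fun_prop)
  obtain ⟨D, -, hD⟩ := Cone_bd cq
  have key : HasSum (fun n => ∫ y, a n * (p y * q y ^ k n) * g y ∂μ)
      (∫ y, p y * (φ (q y) * g y) ∂μ) := by
    refine hasSum_integral_of_dominated_convergence (fun n _ => B * (a n * D ^ k n))
      (fun n => Continuous.aestronglyMeasurable (by fun_prop))
      (fun n => Eventually.of_forall fun y => ?_)
      (Eventually.of_forall fun _ => (hφ D).summable.mul_left B) (integrable_const _)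
      (Eventually.of_forall fun y => ?_)
    · have e : a n * (p y * q y ^ k n) * g y = p y * g y * (a n * q y ^ k n) := by ring
      rw [e, Real.norm_eq_abs, abs_mul (p y * g y), abs_mul (a n), abs_of_nonneg (ha n), abs_pow]
      exact mul_le_mul (hB y) (mul_le_mul_of_nonneg_left
        (pow_le_pow_left₀ (abs_nonneg _) (hD y) _) (ha n))
        (mul_nonneg (ha n) (by positivity)) hB0
    · have h1 := ((hφ (q y)).mul_right (g y)).mul_left (p y)
      have e : (fun n => a n * (p y * q y ^ k n) * g y) =
          fun n => p y * (a n * q y ^ k n * g y) := funext fun n => by ring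
      rw [e]
      exact h1
  exact key.nonneg fun n => hg.2 _ (hP.smul _ (ha n) _ (hP.mul _ hp _ (Cone_pow hP hq (k n))))

theorem Good.exp (hP : IsCone P) (hg : Good μ P g) (hq : q ∈ P) :
    Good μ P fun y => exp (q y) * g y := by
  refine Cone_series hP hg hq (a := fun n => ((n.factorial : ℝ))⁻¹) (k := fun n => n)
    (fun n => by positivity) (fun x => ?_) Real.continuous_exp
  have h := NormedSpace.expSeries_div_hasSum_exp x
  rw [← Real.exp_eq_exp_ℝ] at h
  simpa only [div_eq_inv_mul] using h

theorem Good.sinh (hP : IsCone P) (hg : Good μ P g) (hq : q ∈ P) :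
    Good μ P fun y => sinh (q y) * g y := by
  refine Cone_series hP hg hq (a := fun n => (((2 * n + 1).factorial : ℝ))⁻¹)
    (k := fun n => 2 * n + 1) (fun n => by positivity) (fun x => ?_) Real.continuous_sinh
  simpa only [div_eq_inv_mul] using Real.hasSum_sinh x

end Vale.Agent.P159
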