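import Vale.Agent.P159.Par

/-! The derivative in the radius. `H (sc J (update r a s)) θ = s * A θ + B θ` with
`A θ = ∑ v, J a v * r v * cs (θ a - θ v)` and `B θ = H (sc J (update r a 0)) θ` (`symm`, `diag`, `cs_comm`). By `hasDerivAt_haar`,
`s ↦ ∫ x exp (s A + B)` has derivative `∫ x A exp (…)`. Case `a = c`: `F = s * s * Z` (`W_self`, `W_comm`). Case `a ≠ c`: `F = s * r c * W`,
use `ward` for `K = sc J (update r a s)` (admissibility needs only `symm`, `diag`; this is why `0 ≤ r`, `0 ≤ s` are assumed) and
`cs (θ v - θ c) = cs (θ a - θ c) cs (θ a - θ v) + sn (θ a - θ c) sn (θ a - θ v)`. Terms with `v = a` vanish by `diag`. -/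

open MeasureTheory Filter Topology Real Set Function

noncomputable section

namespace Vale.Agent.P159

variable {V : Type} [Fintype V] [DecidableEq V]

omit [Fintype V] [DecidableEq V] in
theorem Adm.sc {J : V → V → ℝ} (hJ : Adm J) {r : V → ℝ} (hr : 0 ≤ r) : Adm (sc J r) where
  nonneg u v := mul_nonneg (mul_nonneg (hr u) (hr v)) (hJ.nonneg u v)
  symm u v := by simp only [P159.sc, hJ.symm u v, mul_comm (r u) (r v)]
  diag u := by simp only [P159.sc, hJ.diag u, mul_zero]

omit [Fintype V] in
theorem Der_upd (r : V → ℝ) (a u : V) (s : ℝ) :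
    update r a s u = update r a 0 u + s * (Pi.single a 1 : V → ℝ) u := by
  by_cases h : u = a
  · subst h; simp
  · simp [update_of_ne h, Pi.single_eq_of_ne h]

theorem Der_H {J : V → V → ℝ} (hJ : Adm J) (r : V → ℝ) (a : V) (s : ℝ) (θ : V → T) :
    H (sc J (update r a s)) θ =
      s * (∑ v, J a v * r v * cs (θ a - θ v)) + H (sc J (update r a 0)) θ := by
  have h0 : ∀ v, J a v * update r a 0 v = J a v * r v := fun v => by
    by_cases h : v = a
    · subst h; simp [hJ.diag]
    · rw [update_of_ne h]
  have h1 : ∑ u, ∑ v, (Pi.single a 1 : V → ℝ) u * (J u v * update r a 0 v * cs (θ u - θ v)) =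
      ∑ v, J a v * r v * cs (θ a - θ v) := by
    rw [Finset.sum_eq_single a (fun u _ hu => by simp [Pi.single_eq_of_ne hu]) (by simp)]
    exact Finset.sum_congr rfl fun v _ => by rw [h0, Pi.single_eq_same, one_mul]
  have h2 : ∑ u, ∑ v, (Pi.single a 1 : V → ℝ) v * (J u v * update r a 0 u * cs (θ u - θ v)) =
      ∑ v, J a v * r v * cs (θ a - θ v) := by
    refine Finset.sum_congr rfl fun u _ => ?_
    rw [Finset.sum_eq_single a (fun v _ hv => by simp [Pi.single_eq_of_ne hv]) (by simp),
      hJ.symm u a, h0, Pi.single_eq_same, one_mul, cs_comm]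
  have h3 : ∀ u v, (Pi.single a 1 : V → ℝ) u * (Pi.single a 1 : V → ℝ) v * J u v = 0 :=
    fun u v => by
      by_cases hu : u = a
      · by_cases hv : v = a
        · rw [hu, hv, hJ.diag, mul_zero]
        · simp [Pi.single_eq_of_ne hv]
      · simp [Pi.single_eq_of_ne hu]
  have h4 : ∑ u, ∑ v, sc J (update r a s) u v * cs (θ u - θ v) =
      s * ∑ u, ∑ v, (Pi.single a 1 : V → ℝ) u * (J u v * update r a 0 v * cs (θ u - θ v)) +
      s * ∑ u, ∑ v, (Pi.single a 1 : V → ℝ) v * (J u v * update r a 0 u * cs (θ u - θ v)) +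
      ∑ u, ∑ v, sc J (update r a 0) u v * cs (θ u - θ v) := by
    simp only [Finset.mul_sum, ← Finset.sum_add_distrib]
    refine Finset.sum_congr rfl fun u _ => Finset.sum_congr rfl fun v _ => ?_
    simp only [sc]
    rw [Der_upd r a u s, Der_upd r a v s]
    linear_combination (s ^ 2 * cs (θ u - θ v)) * h3 u v
  rw [H, H, h4, h1, h2]
  ring

theorem Der_W {J : V → V → ℝ} (hJ : Adm J) (r : V → ℝ) (a x y : V) (s : ℝ) :
    HasDerivAt (fun s => W (sc J (update r a s)) x y)
      (∑ v, J a v * r v *
        ∫ θ, cs (θ x - θ y) * cs (θ a - θ v) * exp (H (sc J (update r a s)) θ) ∂haar V) s := by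
  let A : (V → T) → ℝ := fun θ => ∑ v, J a v * r v * cs (θ a - θ v)
  let B : (V → T) → ℝ := H (sc J (update r a 0))
  have hA : Continuous A := by fun_prop
  have hB : Continuous B := continuous_H _
  have hx : Continuous fun θ : V → T => cs (θ x - θ y) := by fun_prop
  have hD := hasDerivAt_haar (V := V) (𝕜 := ℝ)
    (f := fun s θ => cs (θ x - θ y) * exp (s * A θ + B θ))
    (f' := fun s θ => cs (θ x - θ y) * (exp (s * A θ + B θ) * A θ))
    ((hx.comp continuous_snd).mul (continuous_exp.comp
      ((continuous_fst.mul (hA.comp continuous_snd)).add (hB.comp continuous_snd))))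
    ((hx.comp continuous_snd).mul ((continuous_exp.comp
      ((continuous_fst.mul (hA.comp continuous_snd)).add (hB.comp continuous_snd))).mul
        (hA.comp continuous_snd)))
    (fun s θ => (((hasDerivAt_mul_const (A θ)).add_const (B θ)).exp).const_mul _) s
  have e : ∀ s θ, s * A θ + B θ = H (sc J (update r a s)) θ := fun s θ => (Der_H hJ r a s θ).symm
  simp only [e] at hD
  refine hD.congr_deriv ?_
  simp only [← integral_const_mul]
  rw [← integral_finsetSum _ fun v _ => integrable_of_cont (by fun_prop)]
  refine integral_congr_ae (Eventually.of_forall fun θ => ?_)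
  simp only [A, Finset.mul_sum]
  exact Finset.sum_congr rfl fun v _ => by ring

theorem F_deriv {J : V → V → ℝ} (hJ : Adm J) {r : V → ℝ} (hr : 0 ≤ r) (a c : V) {s : ℝ}
    (hs : 0 ≤ s) : HasDerivAt (fun s => F J (update r a s) a c)
      ((if a = c then 2 * s * Z (sc J (update r a s)) else 0) +
        s * ∑ v, J a v * F J (update r a s) v c) s := by
  have h0 : ∀ v, J a v * update r a s v = J a v * r v := fun v => by
    by_cases h : v = a
    · subst h; simp [hJ.diag]
    · rw [update_of_ne h]
  have hW := Der_W hJ r a a c s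
  split_ifs with hac
  · subst hac
    simp only [F, update_self]
    refine (((hasDerivAt_id' s).mul (hasDerivAt_id' s)).mul hW).congr_deriv ?_
    simp only [W_self, sub_self, cs_zero, one_mul, mul_one, Finset.mul_sum, Pi.mul_apply]
    have h1 : ∀ v, s * s * (J a v * r v *
        ∫ θ, cs (θ a - θ v) * exp (H (sc J (update r a s)) θ) ∂haar V) =
        s * (J a v * (update r a s v * s * W (sc J (update r a s)) v a)) := fun v => by
      rw [W_comm, W]
      linear_combination (-(s * s *
        ∫ θ, cs (θ a - θ v) * exp (H (sc J (update r a s)) θ) ∂haar V)) * h0 v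
    simp only [h1]
    ring
  · have hca : c ≠ a := Ne.symm hac
    have hρ : 0 ≤ update r a s := fun v => by
      by_cases h : v = a
      · subst h; simpa using hs
      · rw [update_of_ne h]; exact hr v
    simp only [F, update_self, update_of_ne hca]
    refine (((hasDerivAt_id' s).mul_const (r c)).mul hW).congr_deriv ?_
    rw [ward (hJ.sc hρ) hac]
    simp only [Finset.mul_sum, ← Finset.sum_add_distrib, zero_add]
    refine Finset.sum_congr rfl fun v _ => ?_
    have h1 : W (sc J (update r a s)) v c =
        ∫ θ, cs (θ a - θ c) * cs (θ a - θ v) * exp (H (sc J (update r a s)) θ) ∂haar V +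
        ∫ θ, sn (θ a - θ c) * sn (θ a - θ v) * exp (H (sc J (update r a s)) θ) ∂haar V := by
      rw [← integral_add (integrable_of_cont (by fun_prop)) (integrable_of_cont (by fun_prop)), W]
      refine integral_congr_ae (Eventually.of_forall fun θ => ?_)
      have : θ v - θ c = θ a - θ c - (θ a - θ v) := by abel
      simp only [this, cs_sub (θ a - θ c)]
      ring
    rw [h1]
    simp only [sc, update_self]
    linear_combination (-(s * r c *
      ∫ θ, cs (θ a - θ c) * cs (θ a - θ v) * exp (H (sc J (update r a s)) θ) ∂haar V)) * h0 v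

end Vale.Agent.P159
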