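import Vale.Agent.P159.Defs

/-! The duplicated system. -/

open MeasureTheory Filter Topology Real Set Function

noncomputable section

namespace Vale.Agent.P159

variable {V : Type} [Fintype V]

omit [Fintype V] in
theorem Dup_cont {p : (V ⊕ V → T) → ℝ} (h : Sq V p) : Continuous p := by
  induction h with
  | base f hf => fun_prop
  | add p q _ _ hp hq => exact hp.add hq

omit [Fintype V] in
theorem Dup_congr {p q : (V ⊕ V → T) → ℝ} (h : Sq V p) (e : ∀ θ, p θ = q θ) : Sq V q :=
  (funext e : p = q) ▸ h

omit [Fintype V] in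
theorem Dup_mul {p q : (V ⊕ V → T) → ℝ} (hp : Sq V p) (hq : Sq V q) :
    Sq V fun θ => p θ * q θ := by
  induction hp with
  | base f hf =>
    induction hq with
    | base g hg =>
      exact Dup_congr (Sq.base (fun x => f x * g x) (hf.mul hg)) fun θ => by ring
    | add p q _ _ hp hq => exact Dup_congr (Sq.add _ _ hp hq) fun θ => by ring
  | add p q _ _ hp hq => exact Dup_congr (Sq.add _ _ hp hq) fun θ => by ring

omit [Fintype V] in
theorem sq_cone : IsCone {p | Sq V p} where
  cont _ hp := Dup_cont hp
  one := Dup_congr (Sq.base (fun _ => 1) continuous_const) fun _ => mul_one _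
  mul _ hp _ hq := Dup_mul hp hq
  add _ hp _ hq := Sq.add _ _ hp hq
  smul c hc _ hp := Dup_congr (Dup_mul (Sq.base (fun _ => √c) continuous_const) hp) fun _ => by
    rw [Real.mul_self_sqrt hc]

theorem Dup_prod (f g : (V → T) → ℝ) :
    (∫ θ, f θ ∂haar V) * ∫ θ, g θ ∂haar V =
      ∫ θ, f (fun v => θ (.inl v)) * g (fun v => θ (.inr v)) ∂haar (V ⊕ V) := by
  rw [← integral_prod_mul]
  have h := measurePreserving_sumPiEquivProdPi (X := fun _ : V ⊕ V => T)
    fun _ => AddCircle.haarAddCircle
  exact (h.integral_comp' fun z : (V → T) × (V → T) => f z.1 * g z.2).symm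

theorem sq_good : Good (haar (V ⊕ V)) {p | Sq V p} fun _ => 1 := by
  refine ⟨continuous_const, fun p hp => ?_⟩
  simp only [mul_one]
  induction hp with
  | base f hf =>
    rw [← Dup_prod f f]
    exact mul_self_nonneg _
  | add p q h1 h2 hp hq =>
    rw [integral_add (integrable_of_cont (Dup_cont h1)) (integrable_of_cont (Dup_cont h2))]
    exact add_nonneg hp hq

theorem Dup_half (t : T) : ∃ s : T, s + s = t := by
  induction t using QuotientAddGroup.induction_on with
  | H x => exact ⟨((x / 2 : ℝ) : T), by rw [← AddCircle.coe_add, add_halves]⟩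

/-- The duplication map. -/
def Dup_hom (V : Type) : (V ⊕ V → T) →+ (V ⊕ V → T) where
  toFun θ := Sum.elim (fun v => θ (.inl v) + θ (.inr v)) fun v => θ (.inl v) - θ (.inr v)
  map_zero' := funext fun i => by cases i <;> simp
  map_add' a b := funext fun i => by
    cases i <;> simp only [Sum.elim_inl, Sum.elim_inr, Pi.add_apply] <;> abel

theorem dup {f g : (V → T) → ℝ} (hf : Continuous f) (hg : Continuous g) :
    (∫ θ, f θ ∂haar V) * ∫ θ, g θ ∂haar V =
      ∫ θ, f (fun v => θ (.inl v) + θ (.inr v)) * g (fun v => θ (.inl v) - θ (.inr v))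
        ∂haar (V ⊕ V) := by
  have hc : Continuous (Dup_hom V) := continuous_pi fun i => by
    cases i with
    | inl v => exact (continuous_apply _).add (continuous_apply _)
    | inr v => exact (continuous_apply _).sub (continuous_apply _)
  have hs : Surjective (Dup_hom V) := fun η => by
    choose s hs using fun v => Dup_half (η (.inl v) - η (.inr v))
    refine ⟨Sum.elim (fun v => η (.inr v) + s v) s, funext fun i => ?_⟩
    cases i with
    | inl v =>
      show η (.inr v) + s v + s v = η (.inl v)
      rw [add_assoc, hs, add_sub_cancel]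
    | inr v => exact add_sub_cancel_right _ _
  rw [Dup_prod]
  exact (integral_hom (Dup_hom V) hc hs
    (f := fun θ => f (fun v => θ (.inl v)) * g (fun v => θ (.inr v))) (by fun_prop)).symm

omit [Fintype V] in
theorem sq_cc (a c : V) :
    Sq V fun θ => cs (θ (.inl a) - θ (.inl c)) * cs (θ (.inr a) - θ (.inr c)) :=
  Sq.base (fun x => cs (x a - x c)) (by fun_prop)

omit [Fintype V] in
theorem sq_ss (a c : V) :
    Sq V fun θ => sn (θ (.inl a) - θ (.inl c)) * sn (θ (.inr a) - θ (.inr c)) :=
  Sq.base (fun x => sn (x a - x c)) (by fun_prop)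

end Vale.Agent.P159
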