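import Vale.Agent.P159.Pos

/-! Embeddings. `G_emb`: `K'' u v = ∑ u' v', if e u' = u ∧ e v' = v then K' u' v' else 0` has
`H K'' θ = H K' (θ ∘ e)` and `0 ≤ K'' ≤ K`; `θ ↦ θ ∘ e` is a continuous surjective homomorphism (`Function.Injective.surjective_comp_right`),
`integral_hom`, `G_mono`. The `corr` lemmas: split on membership in the box, `corr_eq`, `KB_adm`. -/

open MeasureTheory Filter Topology Real Set Function

noncomputable section

namespace Vale.Agent.P159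

theorem G_emb {V V' : Type} [Fintype V] [Fintype V'] {e : V' → V} (he : Injective e)
    {K' : V' → V' → ℝ} {K : V → V → ℝ} (h0 : ∀ u v, 0 ≤ K' u v) (h1 : ∀ u v, 0 ≤ K u v)
    (h : ∀ u v, K' u v ≤ K (e u) (e v)) (a c : V') : G K' a c ≤ G K (e a) (e c) := by
  obtain ⟨L, l1, l2, l3⟩ : ∃ L : V → V → ℝ, (∀ u v, L (e u) (e v) = K' u v) ∧
      (∀ u, u ∉ range e → ∀ v, L u v = 0) ∧ ∀ u v, v ∉ range e → L u v = 0 := by
    refine ⟨fun u v => extend e (fun u' => extend e (K' u') 0 v) 0 u, fun u v => ?_,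
      fun u hu v => ?_, fun u v hv => ?_⟩
    · simp only [he.extend_apply]
    · simp only [extend_apply' _ _ u hu, Pi.zero_apply]
    · by_cases hu : u ∈ range e
      · obtain ⟨u, rfl⟩ := hu
        simp only [he.extend_apply, extend_apply' _ _ v hv, Pi.zero_apply]
      · simp only [extend_apply' _ _ u hu, Pi.zero_apply]
  have hL : ∀ u v, 0 ≤ L u v ∧ L u v ≤ K u v := fun u v => by
    by_cases hu : u ∈ range e
    · by_cases hv : v ∈ range e
      · obtain ⟨u, rfl⟩ := hu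
        obtain ⟨v, rfl⟩ := hv
        rw [l1]
        exact ⟨h0 u v, h u v⟩
      · rw [l3 u v hv]
        exact ⟨le_rfl, h1 u v⟩
    · rw [l2 u hu v]
      exact ⟨le_rfl, h1 u v⟩
  have hH : ∀ θ : V → T, H K' (θ ∘ e) = H L θ := fun θ => by
    unfold H
    congr 1
    refine Fintype.sum_of_injective e he _ _ (fun u hu => by simp [l2 u hu]) fun u => ?_
    exact Fintype.sum_of_injective e he _ _ (fun v hv => by simp [l3 _ v hv]) fun v => by
      rw [l1]; rfl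
  let φ : (V → T) →+ (V' → T) := ⟨⟨fun θ => θ ∘ e, rfl⟩, fun _ _ => rfl⟩
  have hc : Continuous φ := continuous_pi fun v => continuous_apply (e v)
  have hs : Surjective φ := he.surjective_comp_right
  have hZ : Z L = Z K' := by
    rw [Z, Z, ← integral_hom φ hc hs (f := fun θ => exp (H K' θ)) (by fun_prop)]
    exact integral_congr_ae (Eventually.of_forall fun θ => congrArg exp (hH θ).symm)
  have hW : W L (e a) (e c) = W K' a c := by
    rw [W, W, ← integral_hom φ hc hs (f := fun θ => cs (θ a - θ c) * exp (H K' θ)) (by fun_prop)]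
    exact integral_congr_ae (Eventually.of_forall fun θ =>
      congrArg (fun t => cs (θ (e a) - θ (e c)) * exp t) (hH θ).symm)
  refine le_trans (le_of_eq ?_) (G_mono (fun u v => (hL u v).1) (fun u v => (hL u v).2) (e a) (e c))
  rw [G, G, hZ, hW]

theorem Emb_cases (R : ℕ) (b : ℝ) (x y : ℤ × ℤ) : corr R b x y = 0 ∧ ¬(x ∈ box R ∧ y ∈ box R) ∨
    ∃ (hx : x ∈ box R) (hy : y ∈ box R), corr R b x y = G (KB R b) ⟨x, hx⟩ ⟨y, hy⟩ := by
  by_cases h : x ∈ box R ∧ y ∈ box R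
  · exact .inr ⟨h.1, h.2, corr_eq R b ⟨x, h.1⟩ ⟨y, h.2⟩⟩
  · exact .inl ⟨dif_neg h, h⟩

theorem corr_nonneg {b : ℝ} (hb : 0 ≤ b) (R : ℕ) (x y : ℤ × ℤ) : 0 ≤ corr R b x y := by
  rcases Emb_cases R b x y with h | ⟨hx, hy, h⟩
  · exact h.1.ge
  · exact h ▸ G_nonneg (KB_adm R hb).nonneg _ _

theorem corr_le_one (b : ℝ) (R : ℕ) (x y : ℤ × ℤ) : corr R b x y ≤ 1 := by
  rcases Emb_cases R b x y with h | ⟨hx, hy, h⟩
  · exact h.1.le.trans zero_le_one
  · exact h ▸ G_le_one _ _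

theorem corr_comm (b : ℝ) (R : ℕ) (x y : ℤ × ℤ) : corr R b x y = corr R b y x := by
  rcases Emb_cases R b x y with h | ⟨hx, hy, h⟩
  · rw [h.1, corr, dif_neg fun g => h.2 g.symm]
  · rw [h, G_comm]
    exact (corr_eq R b ⟨y, hy⟩ ⟨x, hx⟩).symm

theorem corr_map {b : ℝ} (hb : 0 ≤ b) {τ : ℤ × ℤ → ℤ × ℤ} (hτ : Injective τ)
    (hn : ∀ x y, nb x y ≤ nb (τ x) (τ y)) {R R' : ℕ} (hR : ∀ x ∈ box R, τ x ∈ box R')
    (x y : ℤ × ℤ) : corr R b x y ≤ corr R' b (τ x) (τ y) := by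
  rcases Emb_cases R b x y with h | ⟨hx, hy, h⟩
  · exact h.1.le.trans (corr_nonneg hb _ _ _)
  · rw [h]
    refine le_trans ?_ (corr_eq R' b ⟨τ x, hR x hx⟩ ⟨τ y, hR y hy⟩).ge
    exact G_emb (e := fun v : box R => (⟨τ v.1, hR _ v.2⟩ : box R'))
      (fun u v g => Subtype.ext (hτ (congrArg Subtype.val g))) (KB_adm R hb).nonneg
      (KB_adm R' hb).nonneg (fun u v => mul_le_mul_of_nonneg_left (hn u.1 v.1) hb) ⟨x, hx⟩ ⟨y, hy⟩

theorem corr_mono {b : ℝ} (hb : 0 ≤ b) (x y : ℤ × ℤ) : Monotone fun R => corr R b x y :=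
  fun _ _ h => corr_map hb injective_id (fun _ _ => le_rfl)
    (fun _ hx => mem_box.2 ((mem_box.1 hx).trans h)) x y

theorem corr_mono_b {b b' : ℝ} (hb : 0 ≤ b) (h : b ≤ b') (R : ℕ) (x y : ℤ × ℤ) :
    corr R b x y ≤ corr R b' x y := by
  rcases Emb_cases R b x y with g | ⟨hx, hy, g⟩
  · exact g.1.le.trans (corr_nonneg (hb.trans h) _ _ _)
  · rw [g]
    refine le_trans ?_ (corr_eq R b' ⟨x, hx⟩ ⟨y, hy⟩).ge
    exact G_mono (KB_adm R hb).nonneg (fun u v => mul_le_mul_of_nonneg_right h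
      (by unfold nb; split_ifs <;> norm_num)) _ _

theorem corr_super {b : ℝ} (hb : 0 ≤ b) (R : ℕ) (x y z : ℤ × ℤ) :
    corr R b x y * corr R b y z ≤ corr R b x z := by
  rcases Emb_cases R b x y with g | ⟨hx, hy, g⟩
  · rw [g.1, zero_mul]
    exact corr_nonneg hb _ _ _
  rcases Emb_cases R b y z with k | ⟨hy', hz, k⟩
  · rw [k.1, mul_zero]
    exact corr_nonneg hb _ _ _
  rw [g, k]
  exact (G_super (KB_adm R hb).nonneg _ _ _).trans (corr_eq R b ⟨x, hx⟩ ⟨z, hz⟩).ge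

theorem corr_one_pos {b : ℝ} (hb : 0 < b) : 0 < corr 1 b (0, 0) (1, 0) := by
  have hx : ((0, 0) : ℤ × ℤ) ∈ box 1 := mem_box.2 (by simp [nrm])
  have hy : ((1, 0) : ℤ × ℤ) ∈ box 1 := mem_box.2 (by simp [nrm])
  refine lt_of_lt_of_le ?_ (corr_eq 1 b ⟨_, hx⟩ ⟨_, hy⟩).ge
  exact G_pos (KB_adm 1 hb.le).nonneg (by simpa [KB, nb] using hb)

end Vale.Agent.P159
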