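import Vale.Agent.P159.Emb

/-! Infinite volume. `tendsto_atTop_ciSup`, `le_ciSup`, `ciSup_le`, `Tendsto.limUnder_eq`. `Gam_map`: every box is mapped
into a larger box (finite image, `mem_box`, `Finset.sup`). `Gam_sub`: `Gam_map` for both translations. `Gam_sq`: if `|x.2| ≤ |x.1|` use
`τ y = (2 x.1 - y.1, y.2)`: `Gam 0 x ≤ Gam (2 x.1, 0) x = Gam x (2 x.1, 0)`, `Gam_super`, and `y ↦ (-y.1, y.2)` if `x.1 < 0`; else first swap
the coordinates. -/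

open MeasureTheory Filter Topology Real Set Function

noncomputable section

namespace Vale.Agent.P159

variable {b : ℝ}

theorem Gam_bdd (b : ℝ) (x y : ℤ × ℤ) : BddAbove (range fun R => corr R b x y) :=
  ⟨1, by rintro _ ⟨R, rfl⟩; exact corr_le_one b R x y⟩

theorem tendsto_Gam (hb : 0 ≤ b) (x y : ℤ × ℤ) :
    Tendsto (fun R => corr R b x y) atTop (𝓝 (Gam b x y)) :=
  tendsto_atTop_ciSup (corr_mono hb x y) (Gam_bdd b x y)

theorem corr_le_Gam (R : ℕ) (x y : ℤ × ℤ) : corr R b x y ≤ Gam b x y :=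
  le_ciSup (Gam_bdd b x y) R

theorem Gam_le {x y : ℤ × ℤ} {M : ℝ} (h : ∀ R, corr R b x y ≤ M) : Gam b x y ≤ M :=
  ciSup_le h

theorem Gam_nonneg (hb : 0 ≤ b) (x y : ℤ × ℤ) : 0 ≤ Gam b x y :=
  (corr_nonneg hb 0 x y).trans (corr_le_Gam 0 x y)

theorem C_eq (hb : 0 ≤ b) (r : ℕ) : C b r = Gam b (0, 0) (r, 0) :=
  (tendsto_Gam hb _ _).limUnder_eq

theorem Gam_map (hb : 0 ≤ b) {τ : ℤ × ℤ → ℤ × ℤ} (hτ : Injective τ)
    (hn : ∀ x y, nb x y ≤ nb (τ x) (τ y)) (x y : ℤ × ℤ) : Gam b x y ≤ Gam b (τ x) (τ y) := by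
  refine Gam_le fun R => ?_
  refine (corr_map hb hτ hn (R' := (box R).sup fun z => nrm (τ z)) (fun z hz => ?_) x y).trans
    (corr_le_Gam _ _ _)
  exact mem_box.2 (Finset.le_sup (f := fun z => nrm (τ z)) hz)

theorem Gam_super (hb : 0 ≤ b) (x y z : ℤ × ℤ) : Gam b x y * Gam b y z ≤ Gam b x z :=
  le_of_tendsto' ((tendsto_Gam hb x y).mul (tendsto_Gam hb y z)) fun R =>
    (corr_super hb R x y z).trans (corr_le_Gam R x z)

theorem Gam_comm (b : ℝ) (x y : ℤ × ℤ) : Gam b x y = Gam b y x := by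
  unfold Gam
  simp only [corr_comm b _ x y]

theorem Gam_add_le (hb : 0 ≤ b) (a x y : ℤ × ℤ) : Gam b x y ≤ Gam b (x + a) (y + a) := by
  refine Gam_map hb (τ := fun z => z + a) (add_left_injective a) (fun u v => le_of_eq ?_) x y
  simp only [nb, Prod.fst_add, Prod.snd_add, add_sub_add_right_eq_sub]

theorem Gam_sub (hb : 0 ≤ b) (x y : ℤ × ℤ) : Gam b x y = Gam b (0, 0) (y - x) := by
  apply le_antisymm
  · have h := Gam_add_le hb (-x) x y
    rwa [add_neg_cancel, ← sub_eq_add_neg] at h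
  · have h := Gam_add_le hb x (0, 0) (y - x)
    have e : ((0, 0) : ℤ × ℤ) + x = x := zero_add x
    rwa [e, sub_add_cancel] at h

theorem Gam_refl (hb : 0 ≤ b) (c : ℤ) (x y : ℤ × ℤ) :
    Gam b x y ≤ Gam b (c - x.1, x.2) (c - y.1, y.2) := by
  refine Gam_map hb (τ := fun z => (c - z.1, z.2)) (fun u v h => ?_) (fun u v => le_of_eq ?_) x y
  · simp only [Prod.mk.injEq] at h
    exact Prod.ext (by omega) h.2
  · have e : c - u.1 - (c - v.1) = -(u.1 - v.1) := by ring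
    simp only [nb, e, abs_neg]

theorem Gam_swap (hb : 0 ≤ b) (x y : ℤ × ℤ) : Gam b x y ≤ Gam b (x.2, x.1) (y.2, y.1) := by
  refine Gam_map hb (τ := fun z => (z.2, z.1)) (fun u v h => ?_) (fun u v => le_of_eq ?_) x y
  · simp only [Prod.mk.injEq] at h
    exact Prod.ext h.2 h.1
  · simp only [nb, add_comm |u.1 - v.1|]

theorem Gam_sq_aux (hb : 0 ≤ b) (x : ℤ × ℤ) :
    Gam b (0, 0) x ^ 2 ≤ C b (2 * x.1.natAbs) := by
  have h1 := Gam_refl hb (2 * x.1) (0, 0) x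
  have e1 : ((2 * x.1 - x.1, x.2) : ℤ × ℤ) = x := Prod.ext (by simp only; ring) rfl
  simp only [sub_zero, e1] at h1
  rw [Gam_comm b (2 * x.1, 0) x] at h1
  have h2 := Gam_super hb (0, 0) x (2 * x.1, 0)
  have h3 : Gam b (0, 0) x ^ 2 ≤ Gam b (0, 0) (2 * x.1, 0) := by
    rw [sq]
    exact (mul_le_mul_of_nonneg_left h1 (Gam_nonneg hb _ _)).trans h2
  rw [C_eq hb]
  refine h3.trans ?_
  rcases le_total 0 x.1 with h | h
  · have e : ((2 * x.1.natAbs : ℕ) : ℤ) = 2 * x.1 := by omega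
    rw [e]
  · have e : ((2 * x.1.natAbs : ℕ) : ℤ) = 0 - 2 * x.1 := by omega
    rw [e]
    have h4 := Gam_refl hb 0 (0, 0) (2 * x.1, 0)
    simpa only [sub_zero] using h4

theorem Gam_sq (hb : 0 ≤ b) (x : ℤ × ℤ) : Gam b (0, 0) x ^ 2 ≤ C b (2 * nrm x) := by
  rcases le_total x.2.natAbs x.1.natAbs with h | h
  · rw [nrm, max_eq_left h]
    exact Gam_sq_aux hb x
  · rw [nrm, max_eq_right h]
    exact (pow_le_pow_left₀ (Gam_nonneg hb _ _) (Gam_swap hb (0, 0) x) 2).trans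
      (Gam_sq_aux hb (x.2, x.1))

theorem C_super (hb : 0 ≤ b) (r s : ℕ) : C b r * C b s ≤ C b (r + s) := by
  rw [C_eq hb, C_eq hb, C_eq hb]
  have h := Gam_super hb (0, 0) ((r : ℤ), 0) (((r + s : ℕ) : ℤ), 0)
  have e : ((((r + s : ℕ) : ℤ), 0) : ℤ × ℤ) - ((r : ℤ), 0) = ((s : ℤ), 0) :=
    Prod.ext (by simp) (by simp)
  rwa [Gam_sub hb ((r : ℤ), 0), e] at h

theorem C_one_pos (hb : 0 < b) : 0 < C b 1 := by
  rw [C_eq hb.le]
  exact (corr_one_pos hb).trans_le (corr_le_Gam 1 _ _)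

theorem C_le_one (hb : 0 ≤ b) (r : ℕ) : C b r ≤ 1 := by
  rw [C_eq hb]
  exact Gam_le fun R => corr_le_one b R _ _

theorem C_zero (hb : 0 ≤ b) : C b 0 = 1 := by
  refine le_antisymm (C_le_one hb 0) ?_
  rw [C_eq hb]
  refine le_trans (le_of_eq ?_) (corr_le_Gam 0 _ _)
  have hm : ((0, 0) : ℤ × ℤ) ∈ box 0 := mem_box.2 (by simp [nrm])
  have h := corr_eq 0 b ⟨(0, 0), hm⟩ ⟨(0, 0), hm⟩
  rw [G, W_self, div_self (Z_pos _).ne'] at h
  exact h.symm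

theorem C_mono {b' : ℝ} (hb : 0 ≤ b) (h : b ≤ b') (r : ℕ) : C b r ≤ C b' r := by
  rw [C_eq hb, C_eq (hb.trans h)]
  exact Gam_le fun R => (corr_mono_b hb h R _ _).trans (corr_le_Gam R _ _)

end Vale.Agent.P159
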