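import Vale.Agent.P159.Cone
import Vale.Agent.P159.Dup

/-! Ginibre inequalities. Write `α = θ ∘ inl`, `β = θ ∘ inr`, `cc`, `ss` as in `sq_cc`, `sq_ss`. First prove
`H A (α + β) + H B (α - β) = 1/2 ∑ ∑ ((A + B) cc + (B - A) ss)` (`cs_add`, `cs_sub`) and that `1/2 ∑ ∑ (x cc + y ss)` is in the cone
when `x, y ≥ 0` (`IsCone.sum`). `G_mono`: `Z K * W K' - W K * Z K' = ∫ 2 ss(a,c) exp (…)` by `dup` twice, `sq_good.exp`.
`Z_four`: `exp q₁ - exp q₂ = 2 exp ((q₁ + q₂) / 2) sinh ((q₁ - q₂) / 2)`. `ginibre`: with `x = cs (θ a - θ b)`, `y = cs (θ c - θ d)`,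
` (x - x') (y - y') = 4 ss(a,b) ss(c,d)`; expand into four uses of `dup`. -/

open MeasureTheory Filter Topology Real Set Function

noncomputable section

namespace Vale.Agent.P159

variable {V : Type} [Fintype V]

/-- The sum of the two copies. -/
def Gin_p (θ : V ⊕ V → T) (v : V) : T := θ (.inl v) + θ (.inr v)

/-- The difference of the two copies. -/
def Gin_m (θ : V ⊕ V → T) (v : V) : T := θ (.inl v) - θ (.inr v)

/-- The product of the cosines. -/
def Gin_cc (a c : V) (θ : V ⊕ V → T) : ℝ :=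
  cs (θ (.inl a) - θ (.inl c)) * cs (θ (.inr a) - θ (.inr c))

/-- The product of the sines. -/
def Gin_ss (a c : V) (θ : V ⊕ V → T) : ℝ :=
  sn (θ (.inl a) - θ (.inl c)) * sn (θ (.inr a) - θ (.inr c))

/-- The energy of the duplicated system. -/
def Gin_q (x y : V → V → ℝ) (θ : V ⊕ V → T) : ℝ :=
  1 / 2 * ∑ u, ∑ v, (x u v * Gin_cc u v θ + y u v * Gin_ss u v θ)

omit [Fintype V] in
theorem Gin_csp (θ : V ⊕ V → T) (a c : V) :
    cs (Gin_p θ a - Gin_p θ c) = Gin_cc a c θ - Gin_ss a c θ := by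
  have e : Gin_p θ a - Gin_p θ c =
      (θ (.inl a) - θ (.inl c)) + (θ (.inr a) - θ (.inr c)) := by unfold Gin_p; abel
  rw [e, cs_add]; rfl

omit [Fintype V] in
theorem Gin_csm (θ : V ⊕ V → T) (a c : V) :
    cs (Gin_m θ a - Gin_m θ c) = Gin_cc a c θ + Gin_ss a c θ := by
  have e : Gin_m θ a - Gin_m θ c =
      (θ (.inl a) - θ (.inl c)) - (θ (.inr a) - θ (.inr c)) := by unfold Gin_m; abel
  rw [e, cs_sub]; rfl

theorem Gin_H (A B : V → V → ℝ) (θ : V ⊕ V → T) : H A (Gin_p θ) + H B (Gin_m θ) =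
    Gin_q (fun u v => A u v + B u v) (fun u v => B u v - A u v) θ := by
  simp only [H, Gin_q, Gin_csp, Gin_csm]
  rw [← mul_add, ← Finset.sum_add_distrib]
  congr 1
  refine Finset.sum_congr rfl fun u _ => ?_
  rw [← Finset.sum_add_distrib]
  exact Finset.sum_congr rfl fun v _ => by ring

theorem Gin_q_mem {x y : V → V → ℝ} (hx : ∀ u v, 0 ≤ x u v) (hy : ∀ u v, 0 ≤ y u v) :
    Gin_q x y ∈ {p | Sq V p} :=
  sq_cone.smul (1 / 2) (by norm_num) _ (sq_cone.sum Finset.univ fun u _ =>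
    sq_cone.sum Finset.univ fun v _ => sq_cone.add _ (sq_cone.smul _ (hx u v) _ (sq_cc u v)) _
      (sq_cone.smul _ (hy u v) _ (sq_ss u v)))

omit [Fintype V] in
@[fun_prop] theorem Gin_cont_cc (a c : V) : Continuous (Gin_cc a c) := by
  unfold Gin_cc; fun_prop

omit [Fintype V] in
@[fun_prop] theorem Gin_cont_ss (a c : V) : Continuous (Gin_ss a c) := by
  unfold Gin_ss; fun_prop

@[fun_prop] theorem Gin_cont_q (x y : V → V → ℝ) : Continuous (Gin_q x y) := by
  unfold Gin_q; fun_prop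

theorem Gin_dup {f g : (V → T) → ℝ} (hf : Continuous f) (hg : Continuous g) (A B : V → V → ℝ) :
    (∫ θ, f θ * exp (H A θ) ∂haar V) * ∫ θ, g θ * exp (H B θ) ∂haar V =
      ∫ θ, f (Gin_p θ) * g (Gin_m θ) *
        exp (Gin_q (fun u v => A u v + B u v) (fun u v => B u v - A u v) θ) ∂haar (V ⊕ V) := by
  rw [dup (f := fun θ => f θ * exp (H A θ)) (g := fun θ => g θ * exp (H B θ)) (by fun_prop)
    (by fun_prop)]
  refine integral_congr_ae (Eventually.of_forall fun θ => ?_)
  change f (Gin_p θ) * exp (H A (Gin_p θ)) * (g (Gin_m θ) * exp (H B (Gin_m θ))) = _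
  simp only [← Gin_H, exp_add]
  ring

theorem Gin_Z (K : V → V → ℝ) : Z K = ∫ θ, (fun _ => (1 : ℝ)) θ * exp (H K θ) ∂haar V := by
  simp [Z]

theorem Gin_pos {x y : V → V → ℝ} (hx : ∀ u v, 0 ≤ x u v) (hy : ∀ u v, 0 ≤ y u v)
    {p : (V ⊕ V → T) → ℝ} (hp : Sq V p) : 0 ≤ ∫ θ, p θ * exp (Gin_q x y θ) ∂haar (V ⊕ V) := by
  simpa using (Good.exp sq_cone sq_good (Gin_q_mem hx hy)).2 p hp

theorem G_mono {K K' : V → V → ℝ} (h0 : ∀ u v, 0 ≤ K u v) (h : ∀ u v, K u v ≤ K' u v) (a c : V) :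
    G K a c ≤ G K' a c := by
  have e1 := Gin_dup (f := fun θ => cs (θ a - θ c)) (g := fun _ => 1) (by fun_prop) (by fun_prop)
    K K'
  have e2 := Gin_dup (f := fun _ => 1) (g := fun θ => cs (θ a - θ c)) (by fun_prop) (by fun_prop)
    K K'
  rw [← Gin_Z] at e1 e2
  have hp := Gin_pos (x := fun u v => K u v + K' u v) (y := fun u v => K' u v - K u v)
    (fun u v => by linarith [h0 u v, h u v]) (fun u v => by linarith [h u v])
    (sq_cone.smul 2 (by norm_num) _ (sq_ss a c))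
  unfold G
  rw [div_le_div_iff₀ (Z_pos K) (Z_pos K'), mul_comm _ (Z K), ← sub_nonneg]
  unfold W
  rw [e1, e2]
  simp only [Gin_csp, Gin_csm]
  rw [← integral_sub (integrable_of_cont (by fun_prop)) (integrable_of_cont (by fun_prop))]
  refine hp.trans_eq (integral_congr_ae (Eventually.of_forall fun θ => ?_))
  change 2 * Gin_ss a c θ * _ = _
  ring

theorem Gin_q_add (x y x' y' : V → V → ℝ) (θ : V ⊕ V → T) (s : ℝ) :
    Gin_q (fun u v => x u v + s * x' u v) (fun u v => y u v + s * y' u v) θ =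
      Gin_q x y θ + s * Gin_q x' y' θ := by
  simp only [Gin_q, Finset.mul_sum, ← Finset.sum_add_distrib]
  exact Finset.sum_congr rfl fun u _ => Finset.sum_congr rfl fun v _ => by ring

theorem Z_four {A B A' B' : V → V → ℝ} (h0 : ∀ u v, 0 ≤ A u v + B u v)
    (h1 : ∀ u v, A u v + B u v ≤ A' u v + B' u v) (h2 : ∀ u v, |B u v - A u v| ≤ B' u v - A' u v) :
    Z A * Z B ≤ Z A' * Z B' := by
  have e1 := Gin_dup (f := fun _ => 1) (g := fun _ => 1) (by fun_prop) (by fun_prop) A B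
  have e2 := Gin_dup (f := fun _ => 1) (g := fun _ => 1) (by fun_prop) (by fun_prop) A' B'
  rw [← Gin_Z, ← Gin_Z] at e1 e2
  set x : V → V → ℝ := fun u v => (A' u v + B' u v + (A u v + B u v)) / 2 with hx
  set y : V → V → ℝ := fun u v => (B' u v - A' u v + (B u v - A u v)) / 2 with hy
  set x' : V → V → ℝ := fun u v => (A' u v + B' u v - (A u v + B u v)) / 2 with hx'
  set y' : V → V → ℝ := fun u v => (B' u v - A' u v - (B u v - A u v)) / 2 with hy'
  have hs : Gin_q x y ∈ {p | Sq V p} :=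
    Gin_q_mem (fun u v => by simp only [hx]; linarith [h0 u v, h1 u v])
      fun u v => by simp only [hy]; linarith [(abs_le.1 (h2 u v)).1]
  have hd : Gin_q x' y' ∈ {p | Sq V p} :=
    Gin_q_mem (fun u v => by simp only [hx']; linarith [h1 u v])
      fun u v => by simp only [hy']; linarith [(abs_le.1 (h2 u v)).2]
  have hp := (Good.sinh sq_cone (Good.exp sq_cone sq_good hs) hd).2 _
    (sq_cone.smul 2 (by norm_num) _ sq_cone.one)
  have q1 : ∀ θ, Gin_q (fun u v => A' u v + B' u v) (fun u v => B' u v - A' u v) θ =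
      Gin_q x y θ + Gin_q x' y' θ := fun θ => by
    have := Gin_q_add x y x' y' θ 1
    rw [one_mul] at this
    rw [← this]
    congr 1 <;> funext u v <;> simp only [hx, hy, hx', hy'] <;> ring
  have q2 : ∀ θ, Gin_q (fun u v => A u v + B u v) (fun u v => B u v - A u v) θ =
      Gin_q x y θ - Gin_q x' y' θ := fun θ => by
    have := Gin_q_add x y x' y' θ (-1)
    rw [neg_one_mul, ← sub_eq_add_neg] at this
    rw [← this]
    congr 1 <;> funext u v <;> simp only [hx, hy, hx', hy'] <;> ring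
  rw [← sub_nonneg, e1, e2,
    ← integral_sub (integrable_of_cont (by fun_prop)) (integrable_of_cont (by fun_prop))]
  refine hp.trans_eq (integral_congr_ae (Eventually.of_forall fun θ => ?_))
  simp only [q1, q2]
  rw [sinh_eq, sub_eq_add_neg (Gin_q x y θ), exp_add, exp_add]
  ring

theorem ginibre {K : V → V → ℝ} (h0 : ∀ u v, 0 ≤ K u v) (a b c d : V) :
    W K a b * W K c d ≤
      (∫ θ, cs (θ a - θ b) * cs (θ c - θ d) * exp (H K θ) ∂haar V) * Z K := by
  have e1 := Gin_dup (f := fun θ => cs (θ a - θ b) * cs (θ c - θ d)) (g := fun _ => 1)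
    (by fun_prop) (by fun_prop) K K
  have e2 := Gin_dup (f := fun _ => 1) (g := fun θ => cs (θ a - θ b) * cs (θ c - θ d))
    (by fun_prop) (by fun_prop) K K
  have e3 := Gin_dup (f := fun θ => cs (θ a - θ b)) (g := fun θ => cs (θ c - θ d))
    (by fun_prop) (by fun_prop) K K
  have e4 := Gin_dup (f := fun θ => cs (θ c - θ d)) (g := fun θ => cs (θ a - θ b))
    (by fun_prop) (by fun_prop) K K
  rw [← Gin_Z] at e1 e2
  simp only [Gin_csp, Gin_csm] at e1 e2 e3 e4
  have hp := Gin_pos (x := fun u v => K u v + K u v) (y := fun u v => K u v - K u v)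
    (fun u v => by linarith [h0 u v]) (fun u v => by linarith)
    (sq_cone.smul 4 (by norm_num) _ (sq_cone.mul _ (sq_ss a b) _ (sq_ss c d)))
  set q := Gin_q (fun u v => K u v + K u v) (fun u v => K u v - K u v) with hq
  have hc : Continuous q := Gin_cont_q _ _
  have key : (∫ θ, cs (θ a - θ b) * cs (θ c - θ d) * exp (H K θ) ∂haar V) * Z K +
      Z K * (∫ θ, cs (θ a - θ b) * cs (θ c - θ d) * exp (H K θ) ∂haar V) -
      (W K a b * W K c d + W K c d * W K a b) =
      ∫ θ, 4 * (Gin_ss a b θ * Gin_ss c d θ) * exp (q θ) ∂haar (V ⊕ V) := by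
    unfold W
    rw [e1, e2, e3, e4,
      ← integral_add (integrable_of_cont (by fun_prop)) (integrable_of_cont (by fun_prop)),
      ← integral_add (integrable_of_cont (by fun_prop)) (integrable_of_cont (by fun_prop)),
      ← integral_sub (integrable_of_cont (by fun_prop)) (integrable_of_cont (by fun_prop))]
    refine integral_congr_ae (Eventually.of_forall fun θ => ?_)
    simp only
    ring
  have hp' : 0 ≤ ∫ θ, 4 * (Gin_ss a b θ * Gin_ss c d θ) * exp (q θ) ∂haar (V ⊕ V) := hp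
  rw [← key] at hp'
  linarith

end Vale.Agent.P159
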