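import Vale.Agent.P159.Gam

/-! The mass. `u r = -log (C b r)` is `Subadditive` and nonnegative; `Subadditive.tendsto_lim`, `Subadditive.lim_le_div`,
`Tendsto.limUnder_eq`. `Gam_le_exp`: `Gam_sq`, `C_le_exp`, `pow_le_pow_left₀` / `abs_le_abs` / `pow_le_pow_iff_left₀`.
`le_mass`: `-(1/r) log C ≥ l - log A / r` (`A > 0` since `C b 0 = 1`), `le_of_tendsto_of_tendsto`. -/

open MeasureTheory Filter Topology Real Set Function

noncomputable section

namespace Vale.Agent.P159

variable {b : ℝ}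

theorem C_pos (hb : 0 < b) (r : ℕ) : 0 < C b r := by
  induction r with
  | zero =>
    rw [C_zero hb.le]
    exact one_pos
  | succ n ih => exact (mul_pos ih (C_one_pos hb)).trans_le (C_super hb.le n 1)

theorem Mass_sub (hb : 0 < b) : Subadditive fun r : ℕ => -log (C b r) := fun m n => by
  have h := log_le_log (mul_pos (C_pos hb m) (C_pos hb n)) (C_super hb.le m n)
  rw [log_mul (C_pos hb m).ne' (C_pos hb n).ne'] at h
  linarith

theorem Mass_nn (hb : 0 < b) (r : ℕ) : 0 ≤ -log (C b r) :=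
  neg_nonneg.2 (log_nonpos (C_pos hb r).le (C_le_one hb.le r))

theorem Mass_bdd (hb : 0 < b) : BddBelow (range fun r : ℕ => -log (C b r) / r) :=
  ⟨0, by
    rintro _ ⟨r, rfl⟩
    exact div_nonneg (Mass_nn hb r) r.cast_nonneg⟩

theorem Mass_lim (hb : 0 < b) :
    Tendsto (fun r : ℕ => -(1 / (r : ℝ)) * log (C b r)) atTop (𝓝 (Mass_sub hb).lim) :=
  ((Mass_sub hb).tendsto_lim (Mass_bdd hb)).congr fun r => by ring

theorem Mass_eq (hb : 0 < b) : mass b = (Mass_sub hb).lim := (Mass_lim hb).limUnder_eq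

theorem tendsto_mass (hb : 0 < b) :
    Tendsto (fun r : ℕ => -(1 / (r : ℝ)) * log (C b r)) atTop (𝓝 (mass b)) := by
  rw [Mass_eq hb]
  exact Mass_lim hb

theorem C_le_exp (hb : 0 < b) (r : ℕ) : C b r ≤ exp (-(mass b * r)) := by
  rcases r.eq_zero_or_pos with rfl | hr
  · simp [C_zero hb.le]
  · have h := (Mass_sub hb).lim_le_div (Mass_bdd hb) hr.ne'
    rw [← Mass_eq hb, le_div_iff₀ (by exact_mod_cast hr)] at h
    rw [← log_le_iff_le_exp (C_pos hb r)]
    linarith

theorem mass_nonneg (hb : 0 < b) : 0 ≤ mass b :=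
  ge_of_tendsto' (tendsto_mass hb) fun r => by
    have h := mul_nonneg (one_div_nonneg.2 (r.cast_nonneg (α := ℝ))) (Mass_nn hb r)
    linarith

theorem Gam_le_exp (hb : 0 < b) (x : ℤ × ℤ) : Gam b (0, 0) x ≤ exp (-(mass b * nrm x)) := by
  have h := (Gam_sq hb.le x).trans (C_le_exp hb (2 * nrm x))
  have e : exp (-(mass b * ((2 * nrm x : ℕ) : ℝ))) = exp (-(mass b * nrm x)) ^ 2 := by
    rw [sq, ← exp_add]
    congr 1
    push_cast
    ring
  rw [e] at h
  exact (pow_le_pow_iff_left₀ (Gam_nonneg hb.le _ _) (exp_pos _).le two_ne_zero).1 h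

theorem le_mass (hb : 0 < b) {A l : ℝ} (h : ∀ r : ℕ, C b r ≤ A * exp (-(l * r))) :
    l ≤ mass b := by
  have hA : 0 < A := by
    have h0 := h 0
    rw [C_zero hb.le] at h0
    simp only [Nat.cast_zero, mul_zero, neg_zero, exp_zero, mul_one] at h0
    linarith
  have h1 : Tendsto (fun r : ℕ => l - log A / r) atTop (𝓝 (l - 0)) :=
    tendsto_const_nhds.sub (tendsto_const_div_atTop_nhds_zero_nat _)
  rw [sub_zero] at h1
  refine le_of_tendsto_of_tendsto h1 (tendsto_mass hb) ?_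
  filter_upwards [eventually_gt_atTop 0] with r hr
  have hr' : (0 : ℝ) < r := by exact_mod_cast hr
  have h2 := log_le_log (C_pos hb r) (h r)
  rw [log_mul hA.ne' (exp_pos _).ne', log_exp] at h2
  have e1 : l - log A / r = (l * r - log A) / r := by field_simp
  have e2 : -(1 / (r : ℝ)) * log (C b r) = -log (C b r) / r := by ring
  rw [e1, e2]
  exact div_le_div_of_nonneg_right (by linarith) hr'.le

theorem mass_le {b₁ : ℝ} (hb : 0 < b₁) (h : b₁ ≤ b) : mass b ≤ -log (C b₁ 1) := by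
  have h1 := (C_mono hb.le h 1).trans (C_le_exp (hb.trans_le h) 1)
  rw [← log_le_iff_le_exp (C_one_pos hb), Nat.cast_one, mul_one] at h1
  linarith

end Vale.Agent.P159
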