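import Vale.Agent.P159.Defs

/-! Lattice sums. `shell`: `Finset.sum_fiberwise_of_maps_to`; the fibre of `k ≥ 1` lies in `box k \ box (k - 1)`, of cardinality
` (2k+1)^2 - (2k-1)^2 = 8k`. `nb_sum`: the neighbours lie in a set of four points. `sum_weight`: `y ^ p ≤ max 1 y ≤ exp y` for
`y = m (k + 1) / 8`, then a geometric sum, `1 / (1 - exp (-t)) ≤ 1 + 1 / t` from `1 + t ≤ exp t`. -/

open MeasureTheory Filter Topology Real Set Function

noncomputable section

namespace Vale.Agent.P159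

theorem Shell_card (k : ℕ) : (box k).card = (2 * k + 1) * (2 * k + 1) := by
  have : (Finset.Icc (-(k : ℤ)) k).card = 2 * k + 1 := by
    rw [Int.card_Icc]
    omega
  rw [box, Finset.card_product, this]

theorem Shell_fib (k : ℕ) (S : Finset (ℤ × ℤ)) :
    (S.filter fun x => nrm x = k).card ≤ 8 * k + 1 := by
  rcases k with _ | k
  · have h : (S.filter fun x => nrm x = 0) ⊆ box 0 := fun x hx =>
      mem_box.2 (Finset.mem_filter.1 hx).2.le
    have := Finset.card_le_card h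
    rw [Shell_card] at this
    omega
  · have h : (S.filter fun x => nrm x = k + 1) ⊆ box (k + 1) \ box k := fun x hx => by
      have := (Finset.mem_filter.1 hx).2
      rw [Finset.mem_sdiff, mem_box, mem_box]
      omega
    have h2 : box k ⊆ box (k + 1) := fun x hx => by
      rw [mem_box] at hx ⊢
      omega
    have h3 := Finset.card_le_card h
    have h4 := Finset.card_sdiff_add_card_eq_card h2
    rw [Shell_card, Shell_card] at h4
    nlinarith

theorem shell {f : ℕ → ℝ} (hf : ∀ k, 0 ≤ f k) (N : ℕ) (S : Finset (ℤ × ℤ))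
    (hS : ∀ x ∈ S, nrm x ≤ N) :
    ∑ x ∈ S, f (nrm x) ≤ ∑ k ∈ Finset.range (N + 1), (8 * (k : ℝ) + 1) * f k := by
  rw [← Finset.sum_fiberwise_of_maps_to (s := S) (t := Finset.range (N + 1)) (g := nrm)
    (fun x hx => Finset.mem_range.2 (Nat.lt_succ_of_le (hS x hx)))]
  refine Finset.sum_le_sum fun k _ => ?_
  have e : ∑ x ∈ S with nrm x = k, f (nrm x) = ∑ x ∈ S with nrm x = k, f k :=
    Finset.sum_congr rfl fun x hx => by rw [(Finset.mem_filter.1 hx).2]
  rw [e, Finset.sum_const, nsmul_eq_mul]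
  refine mul_le_mul_of_nonneg_right ?_ (hf k)
  exact_mod_cast Shell_fib k S

theorem nb_nonneg (x y : ℤ × ℤ) : 0 ≤ nb x y := by
  unfold nb
  split_ifs <;> norm_num

theorem Shell_nb {x y : ℤ × ℤ} (h : nb x y ≠ 0) :
    (x.1 - y.1).natAbs + (x.2 - y.2).natAbs = 1 := by
  unfold nb at h
  split_ifs at h with h1
  · rw [Int.abs_eq_natAbs, Int.abs_eq_natAbs] at h1
    omega
  · exact absurd rfl h

theorem nb_sum (R : ℕ) (x : ℤ × ℤ) : ∑ y : box R, nb x y.1 ≤ 4 := by
  classical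
  rw [Finset.sum_coe_sort (box R) (fun y => nb x y)]
  set A : Finset (ℤ × ℤ) := {(x.1 + 1, x.2), (x.1 - 1, x.2), (x.1, x.2 + 1), (x.1, x.2 - 1)} with hA
  have h1 : ∑ y ∈ box R, nb x y = ∑ y ∈ (box R).filter (· ∈ A), nb x y := by
    rw [Finset.sum_filter_of_ne]
    intro y _ hy
    have := Shell_nb hy
    obtain ⟨a, b⟩ := y
    simp only [hA, Finset.mem_insert, Finset.mem_singleton, Prod.mk.injEq] at this ⊢
    omega
  have h2 : ∑ y ∈ (box R).filter (· ∈ A), nb x y ≤ ∑ y ∈ A, nb x y :=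
    Finset.sum_le_sum_of_subset_of_nonneg (fun y hy => (Finset.mem_filter.1 hy).2)
      fun y _ _ => nb_nonneg x y
  have h3 : ∑ y ∈ A, nb x y ≤ A.card • (1 : ℝ) :=
    Finset.sum_le_card_nsmul _ _ _ fun y _ => by
      unfold nb
      split_ifs <;> norm_num
  have h4 : A.card ≤ 4 := Finset.card_le_four
  have h5 : (A.card : ℝ) ≤ 4 := by exact_mod_cast h4
  rw [nsmul_eq_mul, mul_one] at h3
  linarith

theorem nrm_nb {x y : ℤ × ℤ} (h : nb x y ≠ 0) (z : ℤ × ℤ) : nrm (z - x) ≤ nrm (z - y) + 1 := by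
  have := Shell_nb h
  simp only [nrm, Prod.fst_sub, Prod.snd_sub]
  omega

theorem nrm_nb' {x y : ℤ × ℤ} (h : nb x y ≠ 0) : nrm x ≤ nrm y + 1 ∧ nrm y ≤ nrm x + 1 := by
  have := Shell_nb h
  simp only [nrm]
  omega

theorem nrm_tri (x y z : ℤ × ℤ) : nrm (z - x) ≤ nrm (y - x) + nrm (z - y) := by
  simp only [nrm, Prod.fst_sub, Prod.snd_sub]
  omega

theorem Shell_geom {t : ℝ} (ht : 0 < t) (N : ℕ) :
    ∑ k ∈ Finset.range N, exp (-t) ^ k ≤ 1 + 1 / t := by
  have hq : 0 < exp (-t) := exp_pos _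
  have h1 : exp (-t) * (1 + t) ≤ 1 := by
    have := Real.add_one_le_exp t
    have e : exp (-t) * exp t = 1 := by rw [← Real.exp_add]; simp
    nlinarith
  have h2 := mul_neg_geom_sum (exp (-t)) N
  have h3 : 0 ≤ exp (-t) ^ N := by positivity
  have h4 : 0 ≤ ∑ k ∈ Finset.range N, exp (-t) ^ k := Finset.sum_nonneg fun k _ => by positivity
  set s := ∑ k ∈ Finset.range N, exp (-t) ^ k
  have h5 : t * s ≤ 1 + t := by
    have h6 : t ≤ (1 + t) * (1 - exp (-t)) := by nlinarith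
    have h7 := mul_le_mul_of_nonneg_right h6 h4
    have h8 : (1 - exp (-t)) * s ≤ 1 := by linarith
    nlinarith
  have e : 1 + 1 / t = (1 + t) / t := by field_simp; ring
  rw [e, le_div_iff₀ ht]
  linarith

theorem sum_weight {m p : ℝ} (hm : 0 < m) (hp0 : 0 ≤ p) (hp : p ≤ 1) (N : ℕ) :
    ∑ k ∈ Finset.range N, ((k : ℝ) + 1) ^ p * exp (-(m / 4 * k)) ≤
      (8 / m) ^ p * exp (m / 8) * (1 + 8 / m) := by
  have hg := Shell_geom (t := m / 8) (by positivity) N
  have e0 : 1 / (m / 8) = 8 / m := by field_simp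
  rw [e0] at hg
  refine le_trans ?_ (mul_le_mul_of_nonneg_left hg (by positivity))
  rw [Finset.mul_sum]
  refine Finset.sum_le_sum fun k _ => ?_
  have hy : 0 < m * (k + 1) / 8 := by positivity
  have e1 : ((k : ℝ) + 1) = 8 / m * (m * (k + 1) / 8) := by field_simp
  have h1 : (m * (k + 1) / 8) ^ p ≤ exp (m * (k + 1) / 8) := by
    have h2 := Real.add_one_le_exp (m * (k + 1) / 8)
    rcases le_total (m * (k + 1) / 8) 1 with h | h
    · have := Real.rpow_le_one hy.le h hp0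
      linarith
    · have := Real.rpow_le_rpow_of_exponent_le h hp
      rw [Real.rpow_one] at this
      linarith
  have e2 : ((k : ℝ) + 1) ^ p = (8 / m) ^ p * (m * (k + 1) / 8) ^ p := by
    rw [← Real.mul_rpow (by positivity) hy.le, ← e1]
  have e3 : exp (m * (k + 1) / 8) * exp (-(m / 4 * k)) = exp (m / 8) * exp (-(m / 8)) ^ k := by
    rw [← Real.exp_nat_mul, ← Real.exp_add, ← Real.exp_add]
    congr 1
    ring
  rw [e2, mul_assoc, mul_assoc, ← e3]
  exact mul_le_mul_of_nonneg_left (mul_le_mul_of_nonneg_right h1 (exp_pos _).le) (by positivity)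

end Vale.Agent.P159
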