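import Vale.Agent.P159.Res
import Vale.Agent.P159.Mass
import Vale.Agent.P159.Shell

/-! The mean field bound. By contradiction assume `4 (b₀ - b) exp l X ≤ 1`. Fix `R`, `G₀ = G (KB R b₀)`, `G₁ = G (KB R b)`,
`w a c = exp (l * nrm (c - a))`, `Y = max over a of ∑ c, G₀ a c * w a c` (`Finset.exists_max_image`). `∑ u, G₁ a u * w a u ≤ X`
(`corr_eq`, `corr_le_Gam`, `Gam_sub`, image of the box under `u ↦ u - a`). For neighbours `u, v`: `w a c ≤ w a u * exp l * w v c`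
(`nrm_tri`, `nrm_nb`). `resolvent` and `nb_sum` give `Y ≤ X + 1/2 (b₀ - b) 4 exp l X Y ≤ X + Y / 2`, so `Y ≤ 2 X`, hence
`corr R b₀ (0,0) (r,0) ≤ 2 X exp (-(l r))`; `Gam_le`, `C_eq`, `le_mass` contradict `mass b₀ = 0`. -/

open MeasureTheory Filter Topology Real Set Function

noncomputable section

namespace Vale.Agent.P159

theorem Key_abs {V : Type} [Fintype V] [Nonempty V] {g₀ g₁ w n : V → V → ℝ} {d e X : ℝ}
    (h0 : ∀ a c, 0 ≤ g₀ a c) (h1 : ∀ a c, 0 ≤ g₁ a c) (hw : ∀ a c, 0 ≤ w a c)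
    (hn : ∀ a c, 0 ≤ n a c) (hd : 0 ≤ d) (he : 0 ≤ e) (hs : ∀ u, ∑ v, n u v ≤ 4)
    (ht : ∀ a u v c, n u v * w a c ≤ n u v * (w a u * e * w v c))
    (hX : ∀ a, ∑ u, g₁ a u * w a u ≤ X)
    (hr : ∀ a c, g₀ a c ≤ g₁ a c + 1 / 2 * ∑ u, ∑ v, g₁ a u * (d * n u v) * g₀ v c)
    (h : 4 * d * e * X ≤ 1) (a : V) : ∑ c, g₀ a c * w a c ≤ 2 * X := by
  obtain ⟨a₀, -, ha⟩ := Finset.exists_max_image Finset.univ (fun a => ∑ c, g₀ a c * w a c)
    Finset.univ_nonempty
  set Y := ∑ c, g₀ a₀ c * w a₀ c with hY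
  have hY0 : 0 ≤ Y := Finset.sum_nonneg fun c _ => mul_nonneg (h0 _ _) (hw _ _)
  have h2 : ∑ c, (∑ u, ∑ v, g₁ a₀ u * (d * n u v) * g₀ v c) * w a₀ c ≤ X * (d * e * 4 * Y) := by
    calc _ ≤ ∑ c, ∑ u, ∑ v, g₁ a₀ u * w a₀ u * (d * e * n u v * (g₀ v c * w v c)) := by
          refine Finset.sum_le_sum fun c _ => ?_
          rw [Finset.sum_mul]
          refine Finset.sum_le_sum fun u _ => ?_
          rw [Finset.sum_mul]
          refine Finset.sum_le_sum fun v _ => ?_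
          have := mul_le_mul_of_nonneg_left (ht a₀ u v c)
            (mul_nonneg (mul_nonneg (h1 a₀ u) hd) (h0 v c))
          linarith
      _ = ∑ u, g₁ a₀ u * w a₀ u * ∑ v, d * e * n u v * ∑ c, g₀ v c * w v c := by
          rw [Finset.sum_comm]
          refine Finset.sum_congr rfl fun u _ => ?_
          rw [Finset.sum_comm]
          simp only [Finset.mul_sum]
      _ ≤ ∑ u, g₁ a₀ u * w a₀ u * (d * e * 4 * Y) := by
          refine Finset.sum_le_sum fun u _ =>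
            mul_le_mul_of_nonneg_left ?_ (mul_nonneg (h1 _ _) (hw _ _))
          calc _ ≤ ∑ v, d * e * Y * n u v := Finset.sum_le_sum fun v _ =>
                (mul_le_mul_of_nonneg_left (ha v (Finset.mem_univ v))
                  (mul_nonneg (mul_nonneg hd he) (hn u v))).trans_eq (by ring)
            _ ≤ _ := by
                rw [← Finset.mul_sum]
                exact (mul_le_mul_of_nonneg_left (hs u) (by positivity)).trans_eq (by ring)
      _ ≤ _ := by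
          rw [← Finset.sum_mul]
          exact mul_le_mul_of_nonneg_right (hX a₀) (by positivity)
  have h3 : Y ≤ ∑ c, g₁ a₀ c * w a₀ c +
      1 / 2 * ∑ c, (∑ u, ∑ v, g₁ a₀ u * (d * n u v) * g₀ v c) * w a₀ c := by
    rw [Finset.mul_sum, ← Finset.sum_add_distrib]
    exact Finset.sum_le_sum fun c _ =>
      (mul_le_mul_of_nonneg_right (hr a₀ c) (hw _ _)).trans_eq (by ring)
  have h4 := mul_le_mul_of_nonneg_right h hY0
  have h5 := ha a (Finset.mem_univ a)
  have h6 := hX a₀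
  nlinarith

theorem key {b b₀ l X : ℝ} (hb : 0 < b) (h : b ≤ b₀) (hl : 0 < l) (hm : mass b₀ = 0)
    (hX : ∀ S : Finset (ℤ × ℤ), ∑ x ∈ S, Gam b (0, 0) x * exp (l * nrm x) ≤ X) :
    1 < 4 * (b₀ - b) * exp l * X := by
  by_contra hc
  rw [not_lt] at hc
  have hb₀ : 0 < b₀ := hb.trans_le h
  have hX0 : 0 ≤ X := by simpa using hX ∅
  refine absurd (le_mass hb₀ (A := 2 * X) (l := l) fun r => ?_) (by rw [hm]; linarith)
  rw [C_eq hb₀.le]
  refine Gam_le fun R => ?_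
  by_cases hr : ((r : ℤ), (0 : ℤ)) ∈ box R
  swap
  · rw [corr, dif_neg fun h1 => hr h1.2]
    positivity
  have h0 : ((0 : ℤ), (0 : ℤ)) ∈ box R := mem_box.2 (by simp [nrm])
  have : Nonempty (box R) := ⟨⟨_, h0⟩⟩
  have h1 := Key_abs (g₀ := G (KB R b₀)) (g₁ := G (KB R b))
    (w := fun a c => exp (l * nrm (c.1 - a.1))) (n := fun u v => nb u.1 v.1) (d := b₀ - b)
    (e := exp l) (X := X) (G_nonneg (KB_adm R hb₀.le).nonneg) (G_nonneg (KB_adm R hb.le).nonneg)
    (fun _ _ => (exp_pos _).le) (fun _ _ => nb_nonneg _ _) (by linarith) (exp_pos _).le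
    (fun u => nb_sum R u.1) (fun a u v c => ?_) (fun a => ?_) (fun a c => ?_) hc ⟨_, h0⟩
  · have h2 := (Finset.single_le_sum (f := fun c : box R => G (KB R b₀) ⟨_, h0⟩ c *
      exp (l * nrm (c.1 - (0, 0)))) (fun c _ => mul_nonneg (G_nonneg (KB_adm R hb₀.le).nonneg _ _)
      (exp_pos _).le) (Finset.mem_univ ⟨_, hr⟩)).trans h1
    rw [← corr_eq, show nrm (((r : ℤ), (0 : ℤ)) - (0, 0)) = r by simp [nrm]] at h2
    rw [exp_neg, ← div_eq_mul_inv, le_div_iff₀ (exp_pos _)]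
    exact h2
  · by_cases h2 : nb u.1 v.1 = 0
    · simp [h2]
    refine mul_le_mul_of_nonneg_left ?_ (nb_nonneg _ _)
    rw [← exp_add, ← exp_add]
    have h3 : (nrm (c.1 - a.1) : ℝ) ≤ nrm (u.1 - a.1) + (nrm (c.1 - v.1) + 1) := by
      exact_mod_cast (nrm_tri a.1 u.1 c.1).trans (Nat.add_le_add_left (nrm_nb h2 c.1) _)
    exact exp_le_exp.2 (by nlinarith)
  · refine le_trans ?_ (hX ((box R).image fun u => u - a.1))
    rw [Finset.sum_image fun x _ y _ e => sub_left_injective e, ← Finset.sum_coe_sort (box R)]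
    refine Finset.sum_le_sum fun u _ => mul_le_mul_of_nonneg_right ?_ (exp_pos _).le
    rw [← corr_eq, ← Gam_sub hb.le]
    exact corr_le_Gam _ _ _
  · simpa only [KB, ← sub_mul] using resolvent (KB_adm R hb.le) (KB_adm R hb₀.le)
      (fun u v => mul_le_mul_of_nonneg_right h (nb_nonneg _ _)) a c

end Vale.Agent.P159
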