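import Vale.Agent.P159.Par

/-! The McBryan-Spencer bound. Put `e t = cs t + sn t * I`, `cC t w = cs t * Complex.cos w - sn t * Complex.sin w`
(`= cs (t + w)` for real `w`), and
`Ψ z = ∫ e (θ a - θ c) * cexp (I z (α a - α c)) * cexp (1/2 ∑ ∑ K u v * cC (θ u - θ v) (z (α u - α v)))`.
`Ψ` is entire (`hasDerivAt_haar` over `ℂ`), constant on the reals (`integral_add_right_eq_self` with `fun v => ((z * α v : ℝ) : T)`), hence
constant (`AnalyticOnNhd.eq_of_frequently_eq`). `W K a c = re (Ψ 0) = re (Ψ I) ≤ ‖Ψ I‖`; at `z = I`,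
`re (cC t (I y)) = cs t * cosh y ≤ cs t + (cosh y - 1)` (`Complex.cos_mul_I`, `Complex.sin_mul_I`), `norm_integral_le_of_norm_le`. -/

open MeasureTheory Filter Topology Real Set Function

noncomputable section

namespace Vale.Agent.P159

variable {V : Type} [Fintype V]

/-- The complex exponent. -/
def MS_p (K : V → V → ℝ) (α : V → ℝ) (d : ℝ) (z : ℂ) (θ : V → T) : ℂ :=
  z * d * Complex.I + 1 / 2 * ∑ u, ∑ v, K u v * (cs (θ u - θ v) * Complex.cos (z * (α u - α v : ℝ)) -
    sn (θ u - θ v) * Complex.sin (z * (α u - α v : ℝ)))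

/-- The derivative of the exponent. -/
def MS_q (K : V → V → ℝ) (α : V → ℝ) (d : ℝ) (z : ℂ) (θ : V → T) : ℂ :=
  1 * d * Complex.I + 1 / 2 * ∑ u, ∑ v, K u v *
    (cs (θ u - θ v) * (-Complex.sin (z * (α u - α v : ℝ)) * (1 * (α u - α v : ℝ))) -
    sn (θ u - θ v) * (Complex.cos (z * (α u - α v : ℝ)) * (1 * (α u - α v : ℝ))))

/-- The integrand. -/
def MS_f (K : V → V → ℝ) (α : V → ℝ) (a c : V) (z : ℂ) (θ : V → T) : ℂ :=
  (cs (θ a - θ c) + sn (θ a - θ c) * Complex.I) * Complex.exp (MS_p K α (α a - α c) z θ)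

theorem MS_cont (K : V → V → ℝ) (α : V → ℝ) (a c : V) : Continuous (uncurry (MS_f K α a c)) := by
  unfold MS_f MS_p uncurry
  fun_prop

theorem MS_diff (K : V → V → ℝ) (α : V → ℝ) (a c : V) :
    Differentiable ℂ fun z => ∫ θ, MS_f K α a c z θ ∂haar V := fun z => by
  refine (hasDerivAt_haar (f' := fun z θ => (cs (θ a - θ c) + sn (θ a - θ c) * Complex.I) *
    (Complex.exp (MS_p K α (α a - α c) z θ) * MS_q K α (α a - α c) z θ)) (MS_cont K α a c)
    (by unfold MS_p MS_q uncurry; fun_prop) (fun s θ => ?_) z).differentiableAt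
  refine (HasDerivAt.cexp (HasDerivAt.fun_add (((hasDerivAt_id' s).mul_const _).mul_const _)
    (HasDerivAt.const_mul _ ?_))).const_mul _
  exact HasDerivAt.fun_sum fun u _ => HasDerivAt.fun_sum fun v _ => HasDerivAt.const_mul _
    (((((hasDerivAt_id' s).mul_const _).ccos).const_mul _).fun_sub
      ((((hasDerivAt_id' s).mul_const _).csin).const_mul _))

theorem MS_real (K : V → V → ℝ) (α : V → ℝ) (a c : V) (x : ℝ) (θ : V → T) :
    MS_f K α a c x θ = MS_f K α a c 0 (θ + fun v => ((x * α v : ℝ) : T)) := by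
  have e : ∀ u v, (θ + fun v => ((x * α v : ℝ) : T)) u - (θ + fun v => ((x * α v : ℝ) : T)) v =
      θ u - θ v + ((x * (α u - α v) : ℝ) : T) := fun u v => by
    rw [mul_sub, AddCircle.coe_sub, Pi.add_apply, Pi.add_apply]
    abel
  simp only [MS_f, MS_p, e, cs_add, sn_add, cs_coe, sn_coe, zero_mul, Complex.cos_zero,
    Complex.sin_zero, mul_one, mul_zero, sub_zero, zero_add, Complex.exp_add, Complex.exp_mul_I]
  push_cast
  linear_combination (sn (θ a - θ c) * Complex.sin (x * (α a - α c)) * Complex.exp (1 / 2 *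
    ∑ u, ∑ v, K u v * (cs (θ u - θ v) * Complex.cos (x * (α u - α v)) -
      sn (θ u - θ v) * Complex.sin (x * (α u - α v)))) : ℂ) * Complex.I_mul_I

theorem MS_norm {K : V → V → ℝ} (h0 : ∀ u v, 0 ≤ K u v) (α : V → ℝ) (a c : V) (θ : V → T) :
    ‖MS_f K α a c Complex.I θ‖ ≤
      exp (-(α a - α c) + 1 / 2 * ∑ u, ∑ v, K u v * (cosh (α u - α v) - 1)) * exp (H K θ) := by
  have h1 : ‖(cs (θ a - θ c) + sn (θ a - θ c) * Complex.I : ℂ)‖ = 1 := by
    rw [Complex.norm_add_mul_I, cs_sq, sqrt_one]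
  have h2 : ∀ (t : T) (y : ℝ), (cs t * Complex.cos (Complex.I * y) -
      sn t * Complex.sin (Complex.I * y) : ℂ).re = cs t * cosh y := fun t y => by
    rw [mul_comm Complex.I, Complex.cos_mul_I, Complex.sin_mul_I, ← Complex.ofReal_cosh,
      ← Complex.ofReal_sinh]
    simp [-Complex.ofReal_cosh, -Complex.ofReal_sinh]
  rw [MS_f, norm_mul, h1, one_mul, Complex.norm_exp, ← exp_add, exp_le_exp, MS_p, Complex.add_re,
    add_assoc, H, ← mul_add, ← Finset.sum_add_distrib,
    show (1 / 2 : ℂ) = (1 / 2 : ℝ) by simp, Complex.re_ofReal_mul, Complex.re_sum]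
  refine add_le_add (by simp) (mul_le_mul_of_nonneg_left (Finset.sum_le_sum fun u _ => ?_)
    (by norm_num))
  rw [Complex.re_sum, ← Finset.sum_add_distrib]
  refine Finset.sum_le_sum fun v _ => ?_
  rw [Complex.re_ofReal_mul, h2, ← mul_add]
  refine mul_le_mul_of_nonneg_left ?_ (h0 u v)
  nlinarith [one_le_cosh (α u - α v), le_of_abs_le (abs_cs_le (θ u - θ v))]

theorem ms {K : V → V → ℝ} (h0 : ∀ u v, 0 ≤ K u v) (α : V → ℝ) (a c : V) :
    G K a c ≤ exp (-(α a - α c) + 1 / 2 * ∑ u, ∑ v, K u v * (cosh (α u - α v) - 1)) := by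
  have hi : ∀ z, Integrable (MS_f K α a c z) (haar V) := fun z =>
    integrable_of_cont ((MS_cont K α a c).uncurry_left z)
  have h1 : (fun z => ∫ θ, MS_f K α a c z θ ∂haar V) = fun _ => ∫ θ, MS_f K α a c 0 θ ∂haar V := by
    refine AnalyticOnNhd.eq_of_frequently_eq (z₀ := 0)
      (fun z _ => (MS_diff K α a c).analyticAt z) analyticOnNhd_const ?_
    have ht : Tendsto ((↑) : ℝ → ℂ) (𝓝[≠] 0) (𝓝[≠] 0) :=
      tendsto_nhdsWithin_iff.2 ⟨(Complex.continuous_ofReal.tendsto' 0 0 rfl).mono_left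
        nhdsWithin_le_nhds, eventually_mem_nhdsWithin.mono fun x hx => Complex.ofReal_ne_zero.2 hx⟩
    refine ht.frequently (Frequently.of_forall fun x => ?_)
    simp only [MS_real]
    exact integral_add_right_eq_self (MS_f K α a c 0) _
  have h2 : W K a c = (∫ θ, MS_f K α a c 0 θ ∂haar V).re := by
    refine Eq.trans (integral_congr_ae (Eventually.of_forall fun θ => ?_)) (integral_re (hi 0))
    have e : MS_p K α (α a - α c) 0 θ = H K θ := by simp [MS_p, H]
    simp only [MS_f, e, ← Complex.ofReal_exp]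
    simp [-Complex.ofReal_exp]
  rw [G, div_le_iff₀ (Z_pos K), h2, ← congrFun h1 Complex.I, Z, ← integral_const_mul]
  exact (Complex.re_le_norm _).trans (norm_integral_le_of_norm_le
    (integrable_of_cont (by fun_prop)) (Eventually.of_forall (MS_norm h0 α a c)))

end Vale.Agent.P159
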