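import Vale.Agent.P159.MS
import Vale.Agent.P159.Shell
import Vale.Agent.P159.Gam

/-! Power law upper bound. `γ = min 1 (1 / (40 B))`, `η = γ / 2`, `n = nrm x`; for `n = 0` use `corr_le_one`.
`Gam_le`; in the box `R` containing `x` apply `ms` with `α y = -γ h (min (nrm y) n)`, `h k = ∑ j ∈ range k, 1 / (j + 1)`.
For neighbours `u, v` (`nrm_nb'`): `|α u - α v| ≤ γ / max 1 (nrm u)`, and `= 0` if `nrm u > n`; `cosh t - 1 ≤ t ^ 2` for `|t| ≤ 1`
(`Real.cosh_le_exp_half_sq`, or `Real.abs_exp_sub_one_sub_id_le`). With `nb_sum` and `shell` (on the points with `nrm ≤ n`),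
`∑ u, 1 / max 1 (nrm u) ^ 2 ≤ 1 + 9 h n ≤ 10 h n`, so the exponent is at most `-γ h n + 20 b γ ^ 2 h n ≤ -(γ / 2) h n`, and
`log (n + 1) ≤ h n` (`log_add_one_le_harmonic` or induction). -/

open MeasureTheory Filter Topology Real Set Function

noncomputable section

namespace Vale.Agent.P159

/-- harmonic numbers -/
def MSL_h (k : ℕ) : ℝ := ∑ j ∈ Finset.range k, 1 / ((j : ℝ) + 1)

theorem MSL_succ (k : ℕ) : MSL_h (k + 1) = MSL_h k + 1 / ((k : ℝ) + 1) :=
  Finset.sum_range_succ _ _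

theorem MSL_zero : MSL_h 0 = 0 := by simp [MSL_h]

theorem MSL_log (n : ℕ) : log ((n : ℝ) + 1) ≤ MSL_h n := by
  induction n with
  | zero => simp [MSL_h]
  | succ n ih =>
    rw [MSL_succ]
    have h1 : (0 : ℝ) < n + 1 := by positivity
    have h2 : ((n + 1 : ℕ) : ℝ) + 1 = ((n : ℝ) + 1) * (1 + 1 / ((n : ℝ) + 1)) := by
      push_cast
      field_simp
    have h3 : (0 : ℝ) < 1 + 1 / ((n : ℝ) + 1) := by positivity
    rw [h2, log_mul h1.ne' h3.ne']
    have h4 := log_le_sub_one_of_pos h3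
    linarith

theorem MSL_one_le {n : ℕ} (hn : 1 ≤ n) : 1 ≤ MSL_h n := by
  induction n, hn using Nat.le_induction with
  | base => simp [MSL_h]
  | succ n _ ih =>
    rw [MSL_succ]
    have : (0 : ℝ) ≤ 1 / ((n : ℝ) + 1) := by positivity
    linarith

theorem MSL_cosh {t : ℝ} (ht : |t| ≤ 1) : cosh t - 1 ≤ t ^ 2 := by
  have h1 := Real.abs_exp_sub_one_sub_id_le ht
  have h2 := Real.abs_exp_sub_one_sub_id_le (x := -t) (by rwa [abs_neg])
  rw [cosh_eq]
  have h3 := le_of_abs_le h1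
  have h4 := le_of_abs_le h2
  rw [neg_sq] at h4
  linarith

/-- the weight -/
def MSL_g (k : ℕ) : ℝ := 1 / max 1 (k : ℝ)

theorem MSL_g_nonneg (k : ℕ) : 0 ≤ MSL_g k := by
  unfold MSL_g
  positivity

theorem MSL_g_le (k : ℕ) : MSL_g k ≤ 1 := by
  unfold MSL_g
  rw [div_le_one (by positivity)]
  exact le_max_left _ _

theorem MSL_diff {n k l : ℕ} (h1 : k ≤ l + 1) (h2 : l ≤ k + 1) :
    |MSL_h (min k n) - MSL_h (min l n)| ≤ if k ≤ n then MSL_g k else 0 := by
  split_ifs with hk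
  · rw [min_eq_left hk]
    rcases Nat.lt_trichotomy l k with h | h | h
    · obtain rfl : k = l + 1 := by omega
      rw [min_eq_left (by omega), MSL_succ, add_sub_cancel_left, abs_of_nonneg (by positivity),
        MSL_g, max_eq_right (by push_cast; linarith [Nat.cast_nonneg (α := ℝ) l])]
      push_cast
      exact le_rfl
    · subst h
      rw [min_eq_left hk, sub_self, abs_zero]
      exact MSL_g_nonneg _
    · obtain rfl : l = k + 1 := by omega
      by_cases hkn : k + 1 ≤ n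
      · rw [min_eq_left hkn, MSL_succ, abs_sub_comm, add_sub_cancel_left,
          abs_of_nonneg (by positivity), MSL_g]
        refine one_div_le_one_div_of_le (by positivity) (max_le ?_ ?_)
        · linarith [Nat.cast_nonneg (α := ℝ) k]
        · linarith
      · obtain rfl : k = n := by omega
        rw [min_eq_right (by omega), sub_self, abs_zero]
        exact MSL_g_nonneg _
  · rw [min_eq_right (by omega), min_eq_right (by omega), sub_self, abs_zero]

theorem MSL_sum (n : ℕ) :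
    ∑ k ∈ Finset.range (n + 1), (8 * (k : ℝ) + 1) * MSL_g k ^ 2 ≤ 1 + 9 * MSL_h n := by
  induction n with
  | zero => simp [MSL_g, MSL_h]
  | succ n ih =>
    rw [Finset.sum_range_succ, MSL_succ]
    have h0 : (0 : ℝ) ≤ n := Nat.cast_nonneg n
    have h1 : MSL_g (n + 1) = 1 / ((n : ℝ) + 1) := by
      rw [MSL_g, max_eq_right (by push_cast; linarith)]
      push_cast
      rfl
    have h2 : (8 * ((n + 1 : ℕ) : ℝ) + 1) * MSL_g (n + 1) ^ 2 ≤ 9 * (1 / ((n : ℝ) + 1)) := by
      rw [h1]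
      push_cast
      have e : (8 * ((n : ℝ) + 1) + 1) * (1 / ((n : ℝ) + 1)) ^ 2
          = (8 * ((n : ℝ) + 1) + 1) / ((n : ℝ) + 1) * (1 / ((n : ℝ) + 1)) := by
        field_simp
      rw [e]
      refine mul_le_mul_of_nonneg_right ?_ (by positivity)
      rw [div_le_iff₀ (by positivity)]
      linarith
    linarith

theorem MSL_box (R n : ℕ) :
    ∑ u : box R, (if nrm u.1 ≤ n then MSL_g (nrm u.1) else 0) ^ 2 ≤ 1 + 9 * MSL_h n := by
  refine le_trans ?_ (MSL_sum n)
  refine le_trans (le_of_eq ?_) (shell (f := fun k => MSL_g k ^ 2) (fun k => sq_nonneg _) n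
    ((box R).filter fun u => nrm u ≤ n) fun x hx => (Finset.mem_filter.1 hx).2)
  rw [Finset.sum_filter, ← Finset.sum_coe_sort (box R)]
  refine Finset.sum_congr rfl fun u _ => ?_
  split_ifs <;> simp

theorem MSL_exp (R n : ℕ) {b γ : ℝ} (hb : 0 ≤ b) (h0 : 0 ≤ γ) (h1 : γ ≤ 1) :
    ∑ u : box R, ∑ v : box R, KB R b u v *
      (cosh (-γ * MSL_h (min (nrm u.1) n) - -γ * MSL_h (min (nrm v.1) n)) - 1)
      ≤ 4 * b * γ ^ 2 * (1 + 9 * MSL_h n) := by
  have key : ∀ u v : box R, KB R b u v *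
      (cosh (-γ * MSL_h (min (nrm u.1) n) - -γ * MSL_h (min (nrm v.1) n)) - 1)
      ≤ b * γ ^ 2 * (if nrm u.1 ≤ n then MSL_g (nrm u.1) else 0) ^ 2 * nb u.1 v.1 := by
    intro u v
    by_cases h : nb u.1 v.1 = 0
    · simp [KB, h]
    · obtain ⟨h2, h3⟩ := nrm_nb' h
      have h4 := MSL_diff (n := n) h2 h3
      set d := MSL_h (min (nrm u.1) n) - MSL_h (min (nrm v.1) n) with hd
      set w := (if nrm u.1 ≤ n then MSL_g (nrm u.1) else 0) with hw
      have hw1 : w ≤ 1 := by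
        rw [hw]
        split_ifs
        · exact MSL_g_le _
        · exact zero_le_one
      have e : -γ * MSL_h (min (nrm u.1) n) - -γ * MSL_h (min (nrm v.1) n) = -(γ * d) := by
        rw [hd]
        ring
      have h5 : |γ * d| ≤ 1 := by
        rw [abs_mul, abs_of_nonneg h0]
        exact mul_le_one₀ h1 (abs_nonneg _) (h4.trans hw1)
      have h6 := MSL_cosh h5
      have h7 : d ^ 2 ≤ w ^ 2 := sq_le_sq' (neg_le_of_abs_le h4) (le_of_abs_le h4)
      have h8 : cosh (γ * d) - 1 ≤ γ ^ 2 * w ^ 2 := by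
        rw [mul_pow] at h6
        exact h6.trans (mul_le_mul_of_nonneg_left h7 (sq_nonneg _))
      rw [e, cosh_neg, KB]
      have h9 := mul_le_mul_of_nonneg_left h8 (mul_nonneg hb (nb_nonneg u.1 v.1))
      linarith
  calc _ ≤ ∑ u : box R, b * γ ^ 2 * (if nrm u.1 ≤ n then MSL_g (nrm u.1) else 0) ^ 2 * 4 := by
        refine Finset.sum_le_sum fun u _ => ?_
        refine (Finset.sum_le_sum fun v _ => key u v).trans ?_
        rw [← Finset.mul_sum]
        exact mul_le_mul_of_nonneg_left (nb_sum R u.1) (by positivity)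
    _ = 4 * b * γ ^ 2 * ∑ u : box R, (if nrm u.1 ≤ n then MSL_g (nrm u.1) else 0) ^ 2 := by
        rw [Finset.mul_sum]
        exact Finset.sum_congr rfl fun u _ => by ring
    _ ≤ _ := mul_le_mul_of_nonneg_left (MSL_box R n) (by positivity)

theorem Gam_power {B : ℝ} (hB : 0 < B) : ∃ η : ℝ, 0 < η ∧ η ≤ 1 ∧ ∀ b, 0 ≤ b → b ≤ B →
    ∀ x, Gam b (0, 0) x ≤ ((nrm x : ℝ) + 1) ^ (-η) := by
  set γ : ℝ := min 1 (1 / (40 * B)) with hγ
  have g0 : 0 < γ := lt_min one_pos (by positivity)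
  have g1 : γ ≤ 1 := min_le_left _ _
  have g2 : γ * (40 * B) ≤ 1 := by
    have : γ ≤ 1 / (40 * B) := min_le_right _ _
    rwa [le_div_iff₀ (by positivity)] at this
  refine ⟨γ / 2, by positivity, by linarith, fun b hb hbB x => ?_⟩
  refine Gam_le fun R => ?_
  rcases Nat.eq_zero_or_pos (nrm x) with hn | hn
  · rw [hn]
    simpa using corr_le_one b R (0, 0) x
  by_cases hx : x ∈ box R
  · have h0 : ((0, 0) : ℤ × ℤ) ∈ box R := mem_box.2 (by simp [nrm])
    have e := corr_eq R b ⟨(0, 0), h0⟩ ⟨x, hx⟩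
    have h1 := ms (KB_adm R hb).nonneg
      (fun y : box R => -γ * MSL_h (min (nrm y.1) (nrm x))) ⟨(0, 0), h0⟩ ⟨x, hx⟩
    have h2 := MSL_exp R (nrm x) hb g0.le g1
    have h3 : nrm (0, 0) = 0 := by simp [nrm]
    simp only [h3, min_self, Nat.zero_min, MSL_zero] at h1
    have h4 := MSL_one_le hn
    have h5 := MSL_log (nrm x)
    refine (le_of_eq e).trans (h1.trans ?_)
    rw [rpow_def_of_pos (by positivity)]
    refine exp_le_exp.2 ?_
    have h6 : b * γ * 40 ≤ 1 := by nlinarith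
    have h7 : 4 * b * γ ^ 2 * (1 + 9 * MSL_h (nrm x)) ≤ γ * MSL_h (nrm x) := by
      have h8 : 4 * b * γ ^ 2 * (1 + 9 * MSL_h (nrm x)) ≤ 4 * b * γ ^ 2 * (10 * MSL_h (nrm x)) :=
        mul_le_mul_of_nonneg_left (by linarith) (by positivity)
      have h9 : (b * γ * 40) * (γ * MSL_h (nrm x)) ≤ 1 * (γ * MSL_h (nrm x)) :=
        mul_le_mul_of_nonneg_right h6 (by positivity)
      nlinarith
    have h10 := mul_le_mul_of_nonneg_left h5 g0.le
    linarith
  · rw [corr, dif_neg fun h => hx h.2]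
    positivity

end Vale.Agent.P159
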