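import Vale.Agent.P159.Key
import Vale.Agent.P159.MSL

/-! The lower bound on the correlation length. -/

open MeasureTheory Filter Topology Real Set Function

noncomputable section

namespace Vale.Agent.P159

theorem Main_sum {b η : ℝ} (hb : 0 < b) (hm : 0 < mass b) (h0 : 0 < η) (h1 : η ≤ 1)
    (hG : ∀ x, Gam b (0, 0) x ≤ ((nrm x : ℝ) + 1) ^ (-η)) (S : Finset (ℤ × ℤ)) :
    ∑ x ∈ S, Gam b (0, 0) x * exp (mass b / 4 * nrm x) ≤
      8 * ((8 / mass b) ^ (1 - η / 2) * exp (mass b / 8) * (1 + 8 / mass b)) := by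
  set m := mass b with hmd
  have h2 : ∀ x, Gam b (0, 0) x * exp (m / 4 * nrm x) ≤
      ((nrm x : ℝ) + 1) ^ (-(η / 2)) * exp (-(m / 4 * nrm x)) := fun x => by
    have hk : (0 : ℝ) < (nrm x : ℝ) + 1 := by positivity
    have h3 : Gam b (0, 0) x ≤ ((nrm x : ℝ) + 1) ^ (-(η / 2)) * exp (-(m / 2 * nrm x)) := by
      refine (pow_le_pow_iff_left₀ (Gam_nonneg hb.le _ _) (by positivity) two_ne_zero).1 ?_
      have e1 : (((nrm x : ℝ) + 1) ^ (-(η / 2))) ^ 2 = ((nrm x : ℝ) + 1) ^ (-η) := by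
        rw [sq, ← Real.rpow_add hk]
        congr 1; ring
      have e2 : exp (-(m / 2 * nrm x)) ^ 2 = exp (-(m * nrm x)) := by
        rw [sq, ← exp_add]
        congr 1; ring
      rw [mul_pow, e1, e2, sq]
      exact mul_le_mul (hG x) (Gam_le_exp hb x) (Gam_nonneg hb.le _ _) (by positivity)
    refine (mul_le_mul_of_nonneg_right h3 (exp_pos _).le).trans_eq ?_
    rw [mul_assoc, ← exp_add]
    congr 2; ring
  refine (Finset.sum_le_sum fun x _ => h2 x).trans ?_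
  refine (shell (f := fun k => ((k : ℝ) + 1) ^ (-(η / 2)) * exp (-(m / 4 * k)))
    (fun k => by positivity) (S.sup nrm) S fun x hx => Finset.le_sup hx).trans ?_
  refine le_trans ?_ (mul_le_mul_of_nonneg_left
    (sum_weight (p := 1 - η / 2) hm (by linarith) (by linarith) (S.sup nrm + 1)) (by norm_num))
  rw [Finset.mul_sum]
  refine Finset.sum_le_sum fun k _ => ?_
  have hk : (0 : ℝ) < (k : ℝ) + 1 := by positivity
  rw [sub_eq_add_neg, Real.rpow_add hk, Real.rpow_one]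
  have h4 : 0 ≤ ((k : ℝ) + 1) ^ (-(η / 2)) * exp (-(m / 4 * k)) := by positivity
  nlinarith

theorem xi_lower : ∃ ν : ℝ, 1 / 2 < ν ∧ ∃ c : ℝ, 0 < c ∧ ∀ b, bc / 2 ≤ b → b < bc →
    0 < mass b ∧ c * (bc - b) ^ (-ν) ≤ (mass b)⁻¹ := by
  by_cases hB : 0 < bc
  swap
  · exact ⟨1, by norm_num, 1, one_pos, fun b h1 h2 => absurd (by linarith) hB⟩
  obtain ⟨η, h0, h1, hG⟩ := Gam_power hB
  have hbd : BddBelow {b : ℝ | 0 < b ∧ mass b = 0} := ⟨0, fun b hb => hb.1.le⟩
  have hne : {b : ℝ | 0 < b ∧ mass b = 0}.Nonempty := by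
    by_contra hn
    rw [not_nonempty_iff_eq_empty] at hn
    rw [bc, hn, Real.sInf_empty] at hB
    exact lt_irrefl _ hB
  obtain ⟨M, hM⟩ : ∃ M, M = max 0 (-log (C (bc / 2) 1)) := ⟨_, rfl⟩
  have hM0 : 0 ≤ M := hM ▸ le_max_left _ _
  obtain ⟨p, hp⟩ : ∃ p, p = 1 - η / 2 := ⟨_, rfl⟩
  have hp0 : 0 < p := by linarith
  obtain ⟨A, hA⟩ : ∃ A, A = 64 * exp (M / 4) * 8 ^ p * exp (M / 8) * (M + 8) := ⟨_, rfl⟩
  have hA0 : 0 < A := by rw [hA]; positivity
  refine ⟨(p + 1)⁻¹, ?_, A ^ (-(p + 1)⁻¹), by positivity, fun b hb1 hb2 => ?_⟩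
  · rw [one_div]
    exact inv_strictAnti₀ (by linarith) (by linarith)
  have hb : 0 < b := by linarith
  have hm : 0 < mass b := (mass_nonneg hb).lt_of_ne' fun e =>
    notMem_of_lt_csInf hb2 hbd ⟨hb, e⟩
  refine ⟨hm, ?_⟩
  have hmM : mass b ≤ M := hM ▸ (mass_le (half_pos hB) hb1).trans (le_max_right _ _)
  obtain ⟨b₀, hb₀, hlt⟩ := exists_lt_of_csInf_lt hne (show bc < bc + (bc - b) by linarith)
  have hle : bc ≤ b₀ := csInf_le hbd hb₀
  have hk := key hb (by linarith) (by positivity : 0 < mass b / 4) hb₀.2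
    (Main_sum hb hm h0 h1 (hG b hb.le hb2.le))
  rw [← hp] at hk
  set m := mass b with hmd
  have he : 0 < bc - b := by linarith
  have h2 : 1 ≤ A * (bc - b) / m ^ (p + 1) := by
    refine hk.le.trans ?_
    have e1 : 1 + 8 / m ≤ (M + 8) / m := by
      rw [le_div_iff₀ hm, add_mul, div_mul_cancel₀ _ hm.ne']
      linarith
    calc _ ≤ 4 * (2 * (bc - b)) * exp (M / 4) *
          (8 * ((8 / m) ^ p * exp (M / 8) * ((M + 8) / m))) := by
          gcongr
          linarith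
      _ = _ := by
          rw [hA, Real.div_rpow (by norm_num) hm.le, Real.rpow_add hm, Real.rpow_one]
          field_simp
          ring
  rw [one_le_div (by positivity)] at h2
  have h3 : m ≤ (A * (bc - b)) ^ (p + 1)⁻¹ :=
    (Real.le_rpow_inv_iff_of_pos hm.le (by positivity) (by linarith)).2 h2
  rw [← Real.mul_rpow hA0.le he.le, Real.rpow_neg (by positivity)]
  exact inv_anti₀ hm h3

end Vale.Agent.P159
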