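import Vale.Agent.P159.Defs

/-! Differentiation under the integral and the Ward identity. `hasDerivAt_haar`:
`hasDerivAt_integral_of_dominated_loc_of_deriv_le` on a ball, constant bound from compactness of `closedBall s 1 ×ˢ univ`.
`ward`: `f t θ = sn (θ a + t - θ c) * exp (H K (θ + Pi.single a (t : T)))` has constant integral (`integral_add_right_eq_self`), so the
derivative at `0` vanishes. For derivatives write an angle `x` as a real (`QuotientAddGroup.induction_on`): `t ↦ cs (x + t)` has derivative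
`-sn (x + t)`, `t ↦ sn (x + t)` has derivative `cs (x + t)` (or use `cs_add`, `sn_add`, `cs_coe`, `sn_coe`).
`H K (θ + single a t) = ∑ v, K a v * cs (θ a + t - θ v) + (terms without a)` by `symm`, `diag`; or differentiate the double sum termwise with
`cs (θ u - θ v + (e u - e v) t)`, `e = Pi.single a 1`. -/

open MeasureTheory Filter Topology Real Set Function

noncomputable section

namespace Vale.Agent.P159

variable {V : Type} [Fintype V]

theorem hasDerivAt_haar {𝕜 : Type} [RCLike 𝕜] {f f' : 𝕜 → (V → T) → 𝕜}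
    (hf : Continuous (uncurry f)) (hf' : Continuous (uncurry f'))
    (hd : ∀ s θ, HasDerivAt (fun s => f s θ) (f' s θ) s) (s : 𝕜) :
    HasDerivAt (fun s => ∫ θ, f s θ ∂haar V) (∫ θ, f' s θ ∂haar V) s := by
  have hc : ∀ x, Continuous (f x) := fun x => hf.comp (Continuous.prodMk_right x)
  have hc' : ∀ x, Continuous (f' x) := fun x => hf'.comp (Continuous.prodMk_right x)
  have hK : IsCompact (Metric.closedBall s 1 ×ˢ (univ : Set (V → T))) :=
    (isCompact_closedBall s 1).prod isCompact_univ
  obtain ⟨M, hM⟩ := hK.exists_bound_of_continuousOn hf'.continuousOn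
  refine (hasDerivAt_integral_of_dominated_loc_of_deriv_le (μ := haar V) (F := f) (F' := f')
    (bound := fun _ => M) (Metric.closedBall_mem_nhds s one_pos)
    (Eventually.of_forall fun x => (hc x).aestronglyMeasurable) (integrable_of_cont (hc s))
    (hc' s).aestronglyMeasurable (Eventually.of_forall fun θ x hx => ?_) (integrable_const M)
    (Eventually.of_forall fun θ x _ => hd x θ)).2
  exact hM (x, θ) ⟨hx, mem_univ _⟩

theorem Par_cs (x : T) (k t : ℝ) :
    HasDerivAt (fun t : ℝ => cs (x + ((k * t : ℝ) : T))) (-sn (x + ((k * t : ℝ) : T)) * k) t := by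
  have h1 : HasDerivAt (fun t : ℝ => k * t) k t := by simpa using (hasDerivAt_id t).const_mul k
  have h := (h1.cos.const_mul (cs x)).sub (h1.sin.const_mul (sn x))
  simp only [cs_add, sn_add, cs_coe, sn_coe]
  refine h.congr_deriv ?_
  ring

theorem Par_sn (x : T) (k t : ℝ) :
    HasDerivAt (fun t : ℝ => sn (x + ((k * t : ℝ) : T))) (cs (x + ((k * t : ℝ) : T)) * k) t := by
  have h1 : HasDerivAt (fun t : ℝ => k * t) k t := by simpa using (hasDerivAt_id t).const_mul k
  have h := (h1.cos.const_mul (sn x)).add (h1.sin.const_mul (cs x))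
  simp only [cs_add, sn_add, cs_coe, sn_coe]
  refine h.congr_deriv ?_
  ring

theorem Par_cont (k : ℝ) : Continuous fun t : ℝ => ((k * t : ℝ) : T) :=
  (AddCircle.continuous_mk' (2 * π)).comp (continuous_const.mul continuous_id)

theorem Par_sum [DecidableEq V] {K : V → V → ℝ} (hK : Adm K) (a : V) (θ : V → T) :
    1 / 2 * ∑ u, ∑ v, K u v * (-sn (θ u - θ v) *
      ((Pi.single a 1 : V → ℝ) u - (Pi.single a 1 : V → ℝ) v)) =
      -∑ v, K a v * sn (θ a - θ v) := by
  have h1 : ∑ u, ∑ v, K u v * sn (θ u - θ v) * (Pi.single a 1 : V → ℝ) u =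
      ∑ v, K a v * sn (θ a - θ v) := by
    rw [Finset.sum_comm]
    refine Finset.sum_congr rfl fun v _ => ?_
    rw [Finset.sum_eq_single a (fun u _ hu => by simp [Pi.single_eq_of_ne hu]) (by simp)]
    simp
  have h2 : ∑ u, ∑ v, K u v * sn (θ u - θ v) * (Pi.single a 1 : V → ℝ) v =
      -∑ v, K a v * sn (θ a - θ v) := by
    rw [← Finset.sum_neg_distrib]
    refine Finset.sum_congr rfl fun u _ => ?_
    rw [Finset.sum_eq_single a (fun v _ hv => by simp [Pi.single_eq_of_ne hv]) (by simp),
      hK.symm u a, ← neg_sub (θ a) (θ u), sn_neg]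
    simp
  have h3 : ∑ u, ∑ v, K u v * (-sn (θ u - θ v) *
      ((Pi.single a 1 : V → ℝ) u - (Pi.single a 1 : V → ℝ) v)) =
      ∑ u, ∑ v, K u v * sn (θ u - θ v) * (Pi.single a 1 : V → ℝ) v -
        ∑ u, ∑ v, K u v * sn (θ u - θ v) * (Pi.single a 1 : V → ℝ) u := by
    rw [← Finset.sum_sub_distrib]
    refine Finset.sum_congr rfl fun u _ => ?_
    rw [← Finset.sum_sub_distrib]
    exact Finset.sum_congr rfl fun v _ => by ring
  rw [h3, h1, h2]
  ring

theorem ward {K : V → V → ℝ} (hK : Adm K) {a c : V} (hac : a ≠ c) :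
    W K a c = ∑ v, K a v * ∫ θ, sn (θ a - θ c) * sn (θ a - θ v) * exp (H K θ) ∂haar V := by
  classical
  set e : V → ℝ := Pi.single a 1 with he
  let E : ℝ → (V → T) → ℝ := fun t θ =>
    1 / 2 * ∑ u, ∑ v, K u v * cs (θ u - θ v + (((e u - e v) * t : ℝ) : T))
  let E' : ℝ → (V → T) → ℝ := fun t θ =>
    1 / 2 * ∑ u, ∑ v, K u v * (-sn (θ u - θ v + (((e u - e v) * t : ℝ) : T)) * (e u - e v))
  let f : ℝ → (V → T) → ℝ := fun t θ => sn (θ a - θ c + ((1 * t : ℝ) : T)) * exp (E t θ)
  let f' : ℝ → (V → T) → ℝ := fun t θ =>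
    cs (θ a - θ c + ((1 * t : ℝ) : T)) * 1 * exp (E t θ) +
      sn (θ a - θ c + ((1 * t : ℝ) : T)) * (exp (E t θ) * E' t θ)
  have harg : ∀ (u v : V) (k : ℝ),
      Continuous fun p : ℝ × (V → T) => p.2 u - p.2 v + ((k * p.1 : ℝ) : T) := fun u v k =>
    (((continuous_apply u).comp continuous_snd).sub ((continuous_apply v).comp continuous_snd)).add
      ((Par_cont k).comp continuous_fst)
  have hE : Continuous fun p : ℝ × (V → T) => E p.1 p.2 :=
    continuous_const.mul (continuous_finsetSum _ fun u _ => continuous_finsetSum _ fun v _ =>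
      continuous_const.mul (continuous_cs.comp (harg u v _)))
  have hE' : Continuous fun p : ℝ × (V → T) => E' p.1 p.2 :=
    continuous_const.mul (continuous_finsetSum _ fun u _ => continuous_finsetSum _ fun v _ =>
      continuous_const.mul ((continuous_sn.comp (harg u v _)).neg.mul continuous_const))
  have hf : Continuous (uncurry f) :=
    (continuous_sn.comp (harg a c 1)).mul (continuous_exp.comp hE)
  have hf' : Continuous (uncurry f') :=
    (((continuous_cs.comp (harg a c 1)).mul continuous_const).mul (continuous_exp.comp hE)).add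
      ((continuous_sn.comp (harg a c 1)).mul ((continuous_exp.comp hE).mul hE'))
  have hdE : ∀ t θ, HasDerivAt (fun t => E t θ) (E' t θ) t := fun t θ =>
    (HasDerivAt.fun_sum fun u _ => HasDerivAt.fun_sum fun v _ =>
      (Par_cs (θ u - θ v) (e u - e v) t).const_mul (K u v)).const_mul (1 / 2)
  have hd : ∀ t θ, HasDerivAt (fun t => f t θ) (f' t θ) t := fun t θ =>
    (Par_sn (θ a - θ c) 1 t).fun_mul (hdE t θ).exp
  have hD := hasDerivAt_haar hf hf' hd 0
  have hsub : ∀ (t : ℝ) (θ : V → T) (u v : V),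
      (θ + fun w => ((e w * t : ℝ) : T)) u - (θ + fun w => ((e w * t : ℝ) : T)) v =
        θ u - θ v + (((e u - e v) * t : ℝ) : T) := fun t θ u v => by
    rw [sub_mul, AddCircle.coe_sub]
    simp only [Pi.add_apply]
    abel
  have hconst : (fun t => ∫ θ, f t θ ∂haar V) =
      fun _ => ∫ θ, sn (θ a - θ c) * exp (H K θ) ∂haar V := by
    funext t
    rw [← integral_add_right_eq_self (fun θ => sn (θ a - θ c) * exp (H K θ))
      (fun w => ((e w * t : ℝ) : T))]
    refine integral_congr_ae (Eventually.of_forall fun θ => ?_)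
    have h1 : e a - e c = 1 := by simp [he, Pi.single_eq_of_ne hac.symm]
    simp only [f, E, H, hsub, h1]
  rw [hconst] at hD
  have h0 : ∫ θ, f' 0 θ ∂haar V = 0 := hD.unique (hasDerivAt_const _ _)
  have h1 : ∀ θ, f' 0 θ = cs (θ a - θ c) * exp (H K θ) -
      ∑ v, K a v * (sn (θ a - θ c) * sn (θ a - θ v) * exp (H K θ)) := fun θ => by
    have e1 : E 0 θ = H K θ := by simp [E, H]
    have e2 : E' 0 θ = -∑ v, K a v * sn (θ a - θ v) := by
      rw [← Par_sum hK a θ]
      simp [E', he]
    simp only [f', e1, e2, mul_zero, AddCircle.coe_zero, add_zero, mul_one, mul_neg,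
      Finset.mul_sum, sub_eq_add_neg]
    congr 2
    exact Finset.sum_congr rfl fun v _ => by ring
  simp only [h1] at h0
  rw [integral_sub (integrable_of_cont (by fun_prop)) (integrable_of_cont (by fun_prop)),
    integral_finsetSum _ fun v _ => integrable_of_cont (by fun_prop), sub_eq_zero] at h0
  simp only [integral_const_mul] at h0
  exact h0

end Vale.Agent.P159
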