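import Vale.Agent.P159.Cone

/-! Reflection positivity of sines. Let `s v θ = sn (θ v - θ b)`, `c v θ = cs (θ v - θ b)`;
`cs (θ u - θ v) = c u c v + s u s v`. Cone `P`: inductive closure under sums of `x * ∏ v, s v θ ^ n v` (`x ≥ 0`, `n : V → ℕ`).
`E θ = exp (1/2 ∑ ∑ K c c)` is `Good`: if all `n v` are even the integrand is nonnegative; if `n v` is odd and `v = b` it vanishes
(`sn_zero`); if `n v` is odd and `v ≠ b`, the homomorphism `ρ θ = update θ v (θ b + θ b - θ v)` (an involution, `integral_hom`)
keeps `E` and flips the sign, so the integral is zero. Then `Good.exp` with `q = 1/2 ∑ ∑ K s s`. -/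

open MeasureTheory Filter Topology Real Set Function

noncomputable section

namespace Vale.Agent.P159

variable {V : Type} [Fintype V]

/-- Sums of monomials in the sines. -/
inductive Refl_P (b : V) : ((V → T) → ℝ) → Prop
  | mon (x : ℝ) (hx : 0 ≤ x) (n : V → ℕ) : Refl_P b fun θ => x * ∏ v, sn (θ v - θ b) ^ n v
  | add (p q : (V → T) → ℝ) : Refl_P b p → Refl_P b q → Refl_P b fun θ => p θ + q θ

theorem Refl_cone (b : V) : IsCone {p | Refl_P b p} where
  cont p hp := by
    induction hp with
    | mon x hx n => fun_prop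
    | add p q _ _ h1 h2 => exact h1.add h2
  one := by simpa using Refl_P.mon (b := b) 1 zero_le_one 0
  mul p hp q hq := by
    induction hp with
    | mon x hx n =>
      induction hq with
      | mon y hy m =>
        have e : (fun θ : V → T => (x * ∏ v, sn (θ v - θ b) ^ n v) *
            (y * ∏ v, sn (θ v - θ b) ^ m v)) =
            fun θ => x * y * ∏ v, sn (θ v - θ b) ^ (n + m) v := by
          funext θ
          simp only [Pi.add_apply, pow_add, Finset.prod_mul_distrib]
          ring
        exact e ▸ Refl_P.mon _ (mul_nonneg hx hy) _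
      | add p q _ _ h1 h2 => simpa only [mul_add, mem_ofPred_eq] using Refl_P.add _ _ h1 h2
    | add p q _ _ h1 h2 => simpa only [add_mul, mem_ofPred_eq] using Refl_P.add _ _ h1 h2
  add p hp q hq := Refl_P.add p q hp hq
  smul c hc p hp := by
    induction hp with
    | mon x hx n => simpa only [mul_assoc, mem_ofPred_eq] using Refl_P.mon (b := b) _ (mul_nonneg hc hx) n
    | add p q _ _ h1 h2 => simpa only [mul_add, mem_ofPred_eq] using Refl_P.add _ _ h1 h2

theorem Refl_s (b a : V) : Refl_P b fun θ => sn (θ a - θ b) := by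
  classical
  have e : (fun θ : V → T => sn (θ a - θ b)) =
      fun θ => 1 * ∏ v, sn (θ v - θ b) ^ (if v = a then 1 else 0) := by
    funext θ
    simp only [pow_ite, pow_one, pow_zero, Finset.prod_ite_eq', Finset.mem_univ, if_true, one_mul]
  exact e ▸ Refl_P.mon _ zero_le_one _

theorem Refl_good (K : V → V → ℝ) (b : V) : Good (haar V) {p | Refl_P b p}
    fun θ => exp (1 / 2 * ∑ u, ∑ v, K u v * (cs (θ u - θ b) * cs (θ v - θ b))) := by
  classical
  have hc : Continuous fun θ : V → T =>
      exp (1 / 2 * ∑ u, ∑ v, K u v * (cs (θ u - θ b) * cs (θ v - θ b))) := by fun_prop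
  refine ⟨hc, fun p hp => ?_⟩
  induction hp with
  | add p q a1 a2 h1 h2 =>
    simp only [add_mul]
    exact (add_nonneg h1 h2).trans_eq
      (integral_add (integrable_of_cont (((Refl_cone b).cont p a1).mul hc))
        (integrable_of_cont (((Refl_cone b).cont q a2).mul hc))).symm
  | mon x hx n =>
    by_cases h : ∀ v, Even (n v)
    · exact integral_nonneg fun θ => mul_nonneg (mul_nonneg hx
        (Finset.prod_nonneg fun v _ => (h v).pow_nonneg _)) (exp_pos _).le
    obtain ⟨v, hv⟩ := not_forall.1 h
    have ho : Odd (n v) := Nat.not_even_iff_odd.1 hv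
    by_cases hb : v = b
    · refine integral_nonneg fun θ => le_of_eq ?_
      have e : ∏ u, sn (θ u - θ b) ^ n u = 0 := Finset.prod_eq_zero (Finset.mem_univ v)
        (by rw [hb, sub_self, sn_zero, ← hb, zero_pow ho.pos.ne'])
      simp only [e, mul_zero, zero_mul, Pi.zero_apply]
    let ρ : (V → T) →+ (V → T) := AddMonoidHom.mk' (fun θ => update θ v (θ b + θ b - θ v))
      fun θ η => funext fun u => by
        by_cases hu : u = v
        · simp only [hu, update_self, Pi.add_apply]
          abel
        · simp only [update_of_ne hu, Pi.add_apply]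
    have r0 : ∀ θ, ρ θ b = θ b := fun θ => update_of_ne (Ne.symm hb) _ _
    have r1 : ∀ θ, ρ θ v = θ b + θ b - θ v := fun θ => update_self v _ θ
    have r2 : ∀ θ u, u ≠ v → ρ θ u = θ u := fun θ u hu => update_of_ne hu _ _
    have r3 : ∀ θ, ρ θ v - θ b = -(θ v - θ b) := fun θ => by rw [r1]; abel
    have ri : Involutive ρ := fun θ => funext fun u => by
      by_cases hu : u = v
      · rw [hu, r1, r0, r1, sub_sub_cancel]
      · rw [r2 _ _ hu, r2 _ _ hu]
    have rc : ∀ θ u, cs (ρ θ u - θ b) = cs (θ u - θ b) := fun θ u => by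
      by_cases hu : u = v
      · rw [hu, r3, cs_neg]
      · rw [r2 _ _ hu]
    have rs : ∀ θ, ∏ u, sn (ρ θ u - θ b) ^ n u = -∏ u, sn (θ u - θ b) ^ n u := fun θ => by
      rw [← Finset.mul_prod_erase _ _ (Finset.mem_univ v),
        ← Finset.mul_prod_erase _ _ (Finset.mem_univ v), r3, sn_neg, ho.neg_pow, neg_mul]
      exact congrArg (fun t => -(_ * t)) (Finset.prod_congr rfl fun u hu => by
        rw [r2 _ _ (Finset.ne_of_mem_erase hu)])
    have h1 := integral_hom ρ
      (continuous_id.update v (((continuous_apply b).add (continuous_apply b)).sub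
        (continuous_apply v))) ri.surjective
      (((Refl_cone b).cont _ (Refl_P.mon x hx n)).mul hc)
    simp only [Pi.mul_apply, r0, rc, rs, mul_neg, neg_mul, integral_neg] at h1
    linarith

theorem ss_nonneg {K : V → V → ℝ} (h0 : ∀ u v, 0 ≤ K u v) (a b c : V) :
    0 ≤ ∫ θ, sn (θ a - θ b) * sn (θ c - θ b) * exp (H K θ) ∂haar V := by
  have hP := Refl_cone b
  have hq := hP.smul (1 / 2) (by norm_num) _ (hP.sum Finset.univ fun u _ =>
    hP.sum Finset.univ fun v _ => hP.smul _ (h0 u v) _ (hP.mul _ (Refl_s b u) _ (Refl_s b v)))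
  refine ((Good.exp hP (Refl_good K b) hq).2 _ (hP.mul _ (Refl_s b a) _ (Refl_s b c))).trans_eq
    (integral_congr_ae (Eventually.of_forall fun θ => ?_))
  have e : ∀ u v, cs (θ u - θ v) =
      sn (θ u - θ b) * sn (θ v - θ b) + cs (θ u - θ b) * cs (θ v - θ b) := fun u v => by
    rw [add_comm, ← cs_sub, sub_sub_sub_cancel_right]
  simp only [H, ← exp_add, ← mul_add, ← Finset.sum_add_distrib, ← e]

end Vale.Agent.P159
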