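import Vale.Agent.P159.Gin
import Vale.Agent.P159.Refl

/-! Positivity and supermultiplicativity. `Pos_zero`: for `a ≠ c`, `∫ cs (θ a - θ c) = 0`
(`integral_add_right_eq_self` with `Pi.single a π`, `cs_add_pi`). `G_nonneg`: `G_mono` from `K = 0`. `G_pos`: `a = c` by `W_self`; else
`G_mono` from `K' u v = if u = a ∧ v = c then K a c else 0`, `H K' θ = K a c / 2 * x`, `x = cs (θ a - θ c)`,
`∫ x exp (k x) = ∫ x (exp (k x) - 1) > 0` (continuous, nonnegative, positive at `θ = 0`: `Continuous.integral_pos_of_hasCompactSupport_nonneg_nonzero`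
or `integral_pos_iff_support_of_nonneg`). `G_super`: `cs (θ a - θ c) = cs (θ a - θ b) cs (θ b - θ c) + sn (θ a - θ b) sn (θ c - θ b)`,
`ginibre`, `ss_nonneg`. -/

open MeasureTheory Filter Topology Real Set Function

noncomputable section

namespace Vale.Agent.P159

variable {V : Type} [Fintype V] {K : V → V → ℝ}

theorem Pos_zero {a c : V} (h : a ≠ c) : ∫ θ, cs (θ a - θ c) ∂haar V = 0 := by
  classical
  have h1 := integral_add_right_eq_self (μ := haar V) (fun θ : V → T => cs (θ a - θ c))
    (Pi.single a ((π : ℝ) : T))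
  have h2 : ∀ θ : V → T, cs ((θ + Pi.single a ((π : ℝ) : T) : V → T) a -
      (θ + Pi.single a ((π : ℝ) : T) : V → T) c) = -cs (θ a - θ c) := fun θ => by
    rw [← cs_add_pi, Pi.add_apply, Pi.add_apply, Pi.single_eq_same, Pi.single_eq_of_ne h.symm,
      add_zero, add_sub_right_comm]
  simp only [h2, integral_neg] at h1
  linarith

theorem Pos_self (a : V) : G K a a = 1 := by
  rw [G, W_self, div_self (Z_pos K).ne']

theorem G_nonneg (h0 : ∀ u v, 0 ≤ K u v) (a c : V) : 0 ≤ G K a c := by
  by_cases h : a = c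
  · rw [h, Pos_self]
    exact zero_le_one
  · refine le_trans (le_of_eq ?_) (G_mono (K := fun _ _ => 0) (fun _ _ => le_rfl) h0 a c)
    simp [G, W, H, Pos_zero h]

theorem W_nonneg (h0 : ∀ u v, 0 ≤ K u v) (a c : V) : 0 ≤ W K a c := by
  have h := mul_nonneg (G_nonneg h0 a c) (Z_pos K).le
  rwa [G, div_mul_cancel₀ _ (Z_pos K).ne'] at h

theorem G_le_one (a c : V) : G K a c ≤ 1 := (div_le_one (Z_pos K)).2 (W_le_Z K a c)

theorem G_comm (a c : V) : G K a c = G K c a := by rw [G, G, W_comm]

theorem G_pos (h0 : ∀ u v, 0 ≤ K u v) {a c : V} (h : 0 < K a c) : 0 < G K a c := by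
  classical
  by_cases hac : a = c
  · rw [hac, Pos_self]
    exact one_pos
  set K' : V → V → ℝ := fun u v => if u = a ∧ v = c then K a c else 0 with hK'
  refine lt_of_lt_of_le ?_ (G_mono (K := K') (fun u v => ?_) (fun u v => ?_) a c)
  · refine div_pos ?_ (Z_pos _)
    have e : ∀ θ, H K' θ = K a c / 2 * cs (θ a - θ c) := fun θ => by
      rw [H, Finset.sum_eq_single a, Finset.sum_eq_single c]
      · simp only [hK', and_self, if_true]
        ring
      · intro v _ hv
        simp [hK', hv]
      · simp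
      · intro u _ hu
        simp [hK', hu]
      · simp
    have e2 : W K' a c =
        ∫ θ, cs (θ a - θ c) * (exp (K a c / 2 * cs (θ a - θ c)) - 1) ∂haar V := by
      simp only [W, e, mul_sub, mul_one]
      rw [integral_sub (integrable_of_cont (by fun_prop)) (integrable_of_cont (by fun_prop)),
        Pos_zero hac, sub_zero]
    rw [e2]
    refine Continuous.integral_pos_of_hasCompactSupport_nonneg_nonzero (x := 0) (by fun_prop)
      (HasCompactSupport.of_compactSpace _) (fun θ => ?_) ?_
    · rcases le_total 0 (cs (θ a - θ c)) with hx | hx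
      · exact mul_nonneg hx (sub_nonneg.2 (one_le_exp (by positivity)))
      · exact mul_nonneg_of_nonpos_of_nonpos hx (sub_nonpos.2
          (exp_le_one_iff.2 (mul_nonpos_of_nonneg_of_nonpos (by positivity) hx)))
    · have h1 : 1 < exp (K a c / 2) := one_lt_exp_iff.2 (by positivity)
      simp only [Pi.zero_apply, sub_self, cs_zero, one_mul, mul_one]
      exact (sub_pos.2 h1).ne'
  · simp only [hK']
    split_ifs
    · exact h.le
    · exact le_rfl
  · simp only [hK']
    split_ifs with h1
    · rw [h1.1, h1.2]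
    · exact h0 u v

theorem G_super (h0 : ∀ u v, 0 ≤ K u v) (a b c : V) : G K a b * G K b c ≤ G K a c := by
  have h1 := ginibre h0 a b b c
  have h2 := ss_nonneg h0 a b c
  have h3 : W K a c = (∫ θ, cs (θ a - θ b) * cs (θ b - θ c) * exp (H K θ) ∂haar V) +
      ∫ θ, sn (θ a - θ b) * sn (θ c - θ b) * exp (H K θ) ∂haar V := by
    rw [← integral_add (integrable_of_cont (by fun_prop)) (integrable_of_cont (by fun_prop))]
    refine integral_congr_ae (Eventually.of_forall fun θ => ?_)
    have e : θ a - θ c = (θ a - θ b) - (θ c - θ b) := by abel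
    simp only
    rw [e, cs_sub (θ a - θ b), cs_comm (θ c) (θ b)]
    ring
  have hZ := Z_pos K
  rw [G, G, G, div_mul_div_comm, div_le_div_iff₀ (by positivity) hZ]
  have h4 : W K a b * W K b c ≤ W K a c * Z K :=
    h1.trans (mul_le_mul_of_nonneg_right (by linarith) hZ.le)
  nlinarith

end Vale.Agent.P159
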