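import Vale.Agent.P159.Defs

/-! A Volterra type maximum principle. Let `S = ∑ a w, J a w`, `l = 2 S + 1`, `P M := ∀ a r, D a r ≤ M exp (l ∑ r)`.
`P M → P (M / 2)` for `M ≥ 0`: with `ρ = ∑ over v ≠ a of r v` (`Finset.sum_update_of_mem`), the function
`s ↦ M / 2 * exp (l (ρ + s)) - D a (update r a s)` is nonnegative at `0` and has nonnegative derivative on `[0, 1]`
(`monotoneOn_of_deriv_nonneg` or `image_le_of_deriv_right_le_deriv_boundary`); `update_eq_self`. So `P (max M 0 / 2 ^ n)` for all `n`. -/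

open MeasureTheory Filter Topology Real Set Function

noncomputable section

namespace Vale.Agent.P159

variable {V : Type} [Fintype V] [DecidableEq V]

theorem Volt_mem {r : V → ℝ} (hr : r ∈ Icc (0 : V → ℝ) 1) (a : V) {s : ℝ}
    (hs : s ∈ Icc (0 : ℝ) 1) : update r a s ∈ Icc (0 : V → ℝ) 1 := by
  constructor <;> intro v <;> by_cases h : v = a
  · simpa [h] using hs.1
  · simpa [h] using hr.1 v
  · simpa [h] using hs.2
  · simpa [h] using hr.2 v

theorem Volt_step {J : V → V → ℝ} (hJ : ∀ u v, 0 ≤ J u v) {D : V → (V → ℝ) → ℝ} {M l : ℝ}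
    (hl : ∀ a, 2 * ∑ w, J a w ≤ l) (hM0 : 0 ≤ M)
    (hM : ∀ a, ∀ r ∈ Icc (0 : V → ℝ) 1, D a r ≤ M * exp (l * ∑ v, r v))
    (h0 : ∀ a, ∀ r ∈ Icc (0 : V → ℝ) 1, D a (update r a 0) ≤ 0)
    (hd : ∀ a, ∀ r ∈ Icc (0 : V → ℝ) 1, ∀ s ∈ Icc (0 : ℝ) 1, ∃ d,
      HasDerivAt (fun s => D a (update r a s)) d s ∧ d ≤ s * ∑ w, J a w * D w (update r a s)) :
    ∀ a, ∀ r ∈ Icc (0 : V → ℝ) 1, D a r ≤ M / 2 * exp (l * ∑ v, r v) := fun a r hr => by
  obtain ⟨ρ, hρ⟩ : ∃ ρ, ∀ s, ∑ v, update r a s v = s + ρ :=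
    ⟨_, fun s => Finset.sum_update_of_mem (Finset.mem_univ a) r s⟩
  choose! d h1 h2 using hd a r hr
  have hB : ∀ s, HasDerivAt (fun s => M / 2 * exp (l * (s + ρ)))
      (M / 2 * (exp (l * (s + ρ)) * (l * 1))) s := fun s =>
    ((((hasDerivAt_id s).add_const ρ).const_mul l).exp).const_mul _
  have h := image_le_of_deriv_right_le_deriv_boundary (f := fun s => D a (update r a s)) (f' := d)
    (a := 0) (b := 1) (fun s hs => (h1 s hs).continuousAt.continuousWithinAt)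
    (fun s hs => (h1 s (Ico_subset_Icc_self hs)).hasDerivWithinAt)
    (B := fun s => M / 2 * exp (l * (s + ρ))) ((h0 a r hr).trans (by positivity))
    (fun s _ => (hB s).continuousAt.continuousWithinAt) (fun s _ => (hB s).hasDerivWithinAt)
    (fun s hs => by
      have hs' := Ico_subset_Icc_self hs
      have hE : 0 ≤ M * exp (l * (s + ρ)) := by positivity
      have h3 : ∑ w, J a w * D w (update r a s) ≤ (∑ w, J a w) * (M * exp (l * (s + ρ))) := by
        rw [Finset.sum_mul]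
        refine Finset.sum_le_sum fun w _ => mul_le_mul_of_nonneg_left ?_ (hJ a w)
        rw [← hρ]
        exact hM w _ (Volt_mem hr a hs')
      have h4 : 0 ≤ (∑ w, J a w) * (M * exp (l * (s + ρ))) :=
        mul_nonneg (Finset.sum_nonneg fun w _ => hJ a w) hE
      have h5 := mul_le_mul_of_nonneg_right (hl a) hE
      have h6 := mul_le_mul_of_nonneg_left h3 hs.1
      have h7 := mul_le_of_le_one_left h4 hs.2.le
      have h8 := h2 s hs'
      linarith) (x := r a) ⟨hr.1 a, hr.2 a⟩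
  simp only [← hρ, update_eq_self] at h
  exact h

theorem volterra {J : V → V → ℝ} (hJ : ∀ u v, 0 ≤ J u v) {D : V → (V → ℝ) → ℝ} {M : ℝ}
    (hM : ∀ a, ∀ r ∈ Icc (0 : V → ℝ) 1, D a r ≤ M)
    (h0 : ∀ a, ∀ r ∈ Icc (0 : V → ℝ) 1, D a (update r a 0) ≤ 0)
    (hd : ∀ a, ∀ r ∈ Icc (0 : V → ℝ) 1, ∀ s ∈ Icc (0 : ℝ) 1, ∃ d,
      HasDerivAt (fun s => D a (update r a s)) d s ∧ d ≤ s * ∑ w, J a w * D w (update r a s)) :
    ∀ a, ∀ r ∈ Icc (0 : V → ℝ) 1, D a r ≤ 0 := fun a r hr => by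
  have hl : ∀ a, 2 * ∑ w, J a w ≤ 2 * ∑ a, ∑ w, J a w := fun a =>
    mul_le_mul_of_nonneg_left (Finset.single_le_sum (f := fun a => ∑ w, J a w)
      (fun a _ => Finset.sum_nonneg fun w _ => hJ a w) (Finset.mem_univ a)) zero_le_two
  have hl0 : 0 ≤ 2 * ∑ a, ∑ w, J a w :=
    mul_nonneg zero_le_two (Finset.sum_nonneg fun a _ => Finset.sum_nonneg fun w _ => hJ a w)
  generalize 2 * ∑ a, ∑ w, J a w = l at hl hl0
  have key : ∀ n : ℕ, ∀ a, ∀ r ∈ Icc (0 : V → ℝ) 1,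
      D a r ≤ max M 0 * (1 / 2) ^ n * exp (l * ∑ v, r v) := fun n => by
    induction n with
    | zero =>
      intro a r hr
      rw [pow_zero, mul_one]
      exact ((hM a r hr).trans (le_max_left _ _)).trans (le_mul_of_one_le_right (le_max_right _ _)
        (one_le_exp (mul_nonneg hl0 (Finset.sum_nonneg fun v _ => hr.1 v))))
    | succ n ih =>
      intro a r hr
      refine (Volt_step hJ hl (by positivity) ih h0 hd a r hr).trans_eq ?_
      ring
  have ht : Tendsto (fun n : ℕ => max M 0 * (1 / 2 : ℝ) ^ n * exp (l * ∑ v, r v)) atTop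
      (𝓝 (max M 0 * 0 * exp (l * ∑ v, r v))) :=
    ((tendsto_pow_atTop_nhds_zero_of_lt_one (by norm_num) (by norm_num)).const_mul _).mul_const _
  rw [mul_zero, zero_mul] at ht
  exact ge_of_tendsto' ht fun n => key n a r hr

end Vale.Agent.P159
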