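import Vale.Agent.P159.Der
import Vale.Agent.P159.Volt
import Vale.Agent.P159.Pos

/-! The resolvent inequality. `κ = Z J / Z J'`, `g v = G J v c`,
`D a r = F J r a c - κ (F J' r a c + 1/2 ∑ u v, (J u v - J' u v) g v F J' r a u)`; apply `volterra` with `J'`.
For `r ∈ [0,1]`: `Z (sc J r) ≤ κ Z (sc J' r)` by `Z_four` (`A = sc J r`, `B = J'`, `A' = sc J' r`, `B' = J`);
`F J r v c ≤ W (sc J r) v c = G (sc J r) v c * Z (sc J r) ≤ g v * κ Z (sc J' r)` by `G_mono`. By `F_deriv`,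
`d - s ∑ J' D = [a = c] 2 s (Z (sc J r) - κ Z (sc J' r)) + s ∑ v, (J a v - J' a v) (F J r v c - κ g v Z (sc J' r)) ≤ 0`.
Bound: `D a r ≤ F J r a c ≤ Z (sc J r) ≤ κ Z (sc J' r)`, simplest `Z (sc J r) ≤ exp (1/2 ∑ ∑ J)`. At `r = 1`, `sc J 1 = J`. -/

open MeasureTheory Filter Topology Real Set Function

noncomputable section

namespace Vale.Agent.P159

variable {V : Type} [Fintype V]

omit [Fintype V] in
theorem Res_rho {r : V → ℝ} (hr : r ∈ Icc (0 : V → ℝ) 1) (u v : V) :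
    0 ≤ r u * r v ∧ r u * r v ≤ 1 :=
  ⟨mul_nonneg (hr.1 u) (hr.1 v), mul_le_one₀ (hr.2 u) (hr.1 v) (hr.2 v)⟩

theorem Res_Z {J J' : V → V → ℝ} (h0 : ∀ u v, 0 ≤ J' u v) (h : ∀ u v, J' u v ≤ J u v)
    {r : V → ℝ} (hr : r ∈ Icc (0 : V → ℝ) 1) : Z (sc J r) ≤ Z J / Z J' * Z (sc J' r) := by
  rw [div_mul_eq_mul_div, le_div_iff₀ (Z_pos _), mul_comm (Z J)]
  refine Z_four (fun u v => ?_) (fun u v => ?_) fun u v => ?_
  all_goals
    obtain ⟨a, b⟩ := Res_rho hr u v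
    have c := h0 u v
    have d := h u v
    simp only [sc, abs_le]
    generalize r u * r v = x at a b
  · nlinarith
  · nlinarith
  · constructor <;> nlinarith

theorem Res_Z' {J : V → V → ℝ} (h0 : ∀ u v, 0 ≤ J u v) {r : V → ℝ}
    (hr : r ∈ Icc (0 : V → ℝ) 1) : Z (sc J r) ≤ Z J := by
  have h := Res_Z (J' := fun _ _ => 0) (fun _ _ => le_rfl) h0 hr
  have e : sc (fun _ _ : V => (0 : ℝ)) r = fun _ _ => 0 := by
    funext u v
    exact mul_zero _
  rwa [e, div_mul_cancel₀ _ (Z_pos _).ne'] at h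

theorem Res_F0 {J : V → V → ℝ} (h0 : ∀ u v, 0 ≤ J u v) {r : V → ℝ}
    (hr : r ∈ Icc (0 : V → ℝ) 1) (a c : V) : 0 ≤ F J r a c :=
  mul_nonneg (Res_rho hr a c).1 (W_nonneg (fun u v => mul_nonneg (Res_rho hr u v).1 (h0 u v)) a c)

theorem Res_F {J : V → V → ℝ} (h0 : ∀ u v, 0 ≤ J u v) {r : V → ℝ}
    (hr : r ∈ Icc (0 : V → ℝ) 1) (a c : V) : F J r a c ≤ G J a c * Z (sc J r) := by
  have h1 : ∀ u v, 0 ≤ sc J r u v := fun u v => mul_nonneg (Res_rho hr u v).1 (h0 u v)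
  have h2 := G_mono h1 (K' := J) (fun u v => mul_le_of_le_one_left (h0 u v) (Res_rho hr u v).2) a c
  rw [G, div_le_iff₀ (Z_pos _)] at h2
  exact (mul_le_of_le_one_left (W_nonneg h1 a c) (Res_rho hr a c).2).trans h2

theorem resolvent {J J' : V → V → ℝ} (hJ' : Adm J') (hJ : Adm J) (h : ∀ u v, J' u v ≤ J u v)
    (a c : V) :
    G J a c ≤ G J' a c + 1 / 2 * ∑ u, ∑ v, G J' a u * (J u v - J' u v) * G J v c := by
  classical
  obtain ⟨κ, hκ⟩ : ∃ κ, κ = Z J / Z J' := ⟨_, rfl⟩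
  obtain ⟨q, hq⟩ : ∃ q : V → ℝ, q = fun u => ∑ v, (J u v - J' u v) * G J v c := ⟨_, rfl⟩
  have k0 : 0 < κ := hκ ▸ div_pos (Z_pos _) (Z_pos _)
  have q0 : ∀ u, 0 ≤ q u := fun u => hq ▸ Finset.sum_nonneg fun v _ =>
    mul_nonneg (sub_nonneg.2 (h u v)) (G_nonneg hJ.nonneg v c)
  have key := volterra hJ'.nonneg (M := Z J)
    (D := fun a r => F J r a c - κ * (F J' r a c + 1 / 2 * ∑ u, q u * F J' r a u))
    (fun a r hr => ?_) (fun a r _ => by simp [F]) (fun a r hr s hs => ?_) a 1 ⟨zero_le_one, le_rfl⟩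
  · have e : ∀ K : V → V → ℝ, sc K 1 = K := fun K => by
      funext u v
      simp [sc]
    have e1 : ∑ u, ∑ v, G J' a u * (J u v - J' u v) * G J v c = (∑ u, q u * W J' a u) / Z J' := by
      rw [Finset.sum_div]
      refine Finset.sum_congr rfl fun u _ => ?_
      simp only [hq, mul_assoc (G J' a u), ← Finset.mul_sum]
      rw [mul_div_assoc, mul_comm]
      rfl
    simp only [F, e, Pi.one_apply, one_mul, hκ, sub_nonpos] at key
    rw [e1, G, G, div_le_iff₀ (Z_pos J)]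
    refine key.trans_eq ?_
    ring
  · have h1 := (Res_F hJ.nonneg hr a c).trans ((mul_le_of_le_one_left (Z_pos _).le
      (G_le_one a c)).trans (Res_Z' hJ.nonneg hr))
    have h2 := Res_F0 hJ'.nonneg hr a c
    have h3 : 0 ≤ ∑ u, q u * F J' r a u :=
      Finset.sum_nonneg fun u _ => mul_nonneg (q0 u) (Res_F0 hJ'.nonneg hr a u)
    exact (sub_le_self _ (by positivity)).trans h1
  have hρ : update r a s ∈ Icc (0 : V → ℝ) 1 := by
    refine ⟨fun v => ?_, fun v => ?_⟩ <;> by_cases e : v = a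
    · simpa [e] using hs.1
    · simpa [e] using hr.1 v
    · simpa [e] using hs.2
    · simpa [e] using hr.2 v
  refine ⟨_, (F_deriv hJ hr.1 a c hs.1).sub (((F_deriv hJ' hr.1 a c hs.1).add
    ((HasDerivAt.fun_sum fun u _ => (F_deriv hJ' hr.1 a u hs.1).const_mul (q u)).const_mul
      (1 / 2))).const_mul κ), ?_⟩
  have h1 := Res_Z hJ'.nonneg h hρ
  rw [← hκ] at h1
  have h2 : ∑ v, (J a v - J' a v) * F J (update r a s) v c ≤
      q a * (κ * Z (sc J' (update r a s))) := by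
    rw [hq, Finset.sum_mul]
    refine Finset.sum_le_sum fun v _ => ?_
    rw [mul_assoc]
    exact mul_le_mul_of_nonneg_left ((Res_F hJ.nonneg hρ v c).trans
      (mul_le_mul_of_nonneg_left h1 (G_nonneg hJ.nonneg v c))) (sub_nonneg.2 (h a v))
  generalize update r a s = ρ at h1 h2 ⊢
  have e1 : ∑ u, q u * ((if a = u then 2 * s * Z (sc J' ρ) else 0) +
      s * ∑ v, J' a v * F J' ρ v u) = q a * (2 * s * Z (sc J' ρ)) +
      s * ∑ w, J' a w * ∑ u, q u * F J' ρ w u := by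
    simp only [mul_add, Finset.sum_add_distrib, mul_ite, mul_zero, Finset.sum_ite_eq,
      Finset.mem_univ, if_true, Finset.mul_sum]
    rw [Finset.sum_comm]
    exact congrArg _ (Finset.sum_congr rfl fun _ _ => Finset.sum_congr rfl fun _ _ => by ring)
  have e2 : ∑ w, J' a w * (F J ρ w c - κ * (F J' ρ w c + 1 / 2 * ∑ u, q u * F J' ρ w u)) =
      ∑ w, J' a w * F J ρ w c - κ * (∑ w, J' a w * F J' ρ w c +
        1 / 2 * ∑ w, J' a w * ∑ u, q u * F J' ρ w u) := by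
    rw [Finset.mul_sum _ _ (1 / 2 : ℝ), ← Finset.sum_add_distrib, Finset.mul_sum _ _ κ,
      ← Finset.sum_sub_distrib]
    exact Finset.sum_congr rfl fun _ _ => by ring
  simp only [sub_mul, Finset.sum_sub_distrib] at h2
  have h3 := mul_le_mul_of_nonneg_left h1 hs.1
  have h4 := mul_le_mul_of_nonneg_left h2 hs.1
  rw [e1, e2]
  split_ifs <;> nlinarith

end Vale.Agent.P159
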