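import Mathlib

/-! The nearest neighbour XY model on the square lattice. -/

open MeasureTheory Filter Topology Real

noncomputable section

namespace Vale.Agent.P159

instance twoPi : Fact (0 < 2 * π) := ⟨Real.two_pi_pos⟩

/-- Angles: the reals modulo `2 π`. -/
abbrev T : Type := AddCircle (2 * π)

/-- The cosine of an angle. -/
def cs (t : T) : ℝ := Real.Angle.cos t

/-- The product of the normalised Haar measures `dθ / (2 π)`. -/
def haar (V : Type) [Fintype V] : Measure (V → T) := Measure.pi fun _ => AddCircle.haarAddCircle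

/-- The box `[-R, R] ^ 2`. -/
def box (R : ℕ) : Finset (ℤ × ℤ) := Finset.Icc (-(R : ℤ)) R ×ˢ Finset.Icc (-(R : ℤ)) R

/-- The indicator of nearest neighbours. -/
def nb (x y : ℤ × ℤ) : ℝ := if |x.1 - y.1| + |x.2 - y.2| = 1 then 1 else 0

/-- The sum of the cosines over unordered nearest neighbour pairs of the box. -/
def energy (R : ℕ) (θ : box R → T) : ℝ := 1 / 2 * ∑ x, ∑ y, nb x.1 y.1 * cs (θ x - θ y)

/-- The two point function in the box with free boundary. -/
def corr (R : ℕ) (b : ℝ) (x y : ℤ × ℤ) : ℝ :=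
  if h : x ∈ box R ∧ y ∈ box R then
    (∫ θ, cs (θ ⟨x, h.1⟩ - θ ⟨y, h.2⟩) * exp (b * energy R θ) ∂haar (box R)) /
      ∫ θ, exp (b * energy R θ) ∂haar (box R)
  else 0

/-- The infinite volume two point function along the first axis. -/
def C (b : ℝ) (r : ℕ) : ℝ := limUnder atTop fun R => corr R b (0, 0) (r, 0)

/-- The mass. -/
def mass (b : ℝ) : ℝ := limUnder atTop fun r : ℕ => -(1 / (r : ℝ)) * log (C b r)

/-- The critical inverse temperature. -/
def bc : ℝ := sInf {b | 0 < b ∧ mass b = 0}

end Vale.Agent.P159
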